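import Vale.Agent.P271.Defs

/-! P271 C/Par: choice of parameters.

Plan. `par1`: pick `β` with `1 / p < β < θ / n`, then `ε` small by continuity at `0`. `par2`: take `L`
with `ε L ≥ M + p ^ M`; `k = L - d - p ^ d ≥ (1 - ε) L`, `k ^ d ≤ d! * (k + d).choose d`
(`Nat.pow_le_choose` or `Nat.ascFactorial`); `μ₁ = min (ε / L) ((1 - ε) ^ 2 ε / 3)`, so that
`exp (-μ L) ≥ 1 - ε`. `par3`: a polynomial in `K` times `exp (-μ₀ K)` tends to `0`
(`Real.tendsto_pow_mul_exp_neg_atTop_nhds_zero`). Auxiliary names start with `par_`. -/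

open MeasureTheory Set Filter Topology
open scoped ContDiff ENNReal ComplexConjugate

noncomputable section

namespace Vale.Agent.P271

theorem par_choose (k d : ℕ) : k ^ d ≤ d.factorial * (k + d).choose d := by
  rw [← Nat.ascFactorial_eq_factorial_mul_choose]
  exact (Nat.pow_le_pow_left (Nat.le_succ k) d).trans (Nat.pow_succ_le_ascFactorial _ _)

theorem par_lim (m : ℕ) (c : ℝ) {μ δ : ℝ} (hμ : 0 < μ) (hδ : 0 < δ) :
    ∀ᶠ K : ℕ in atTop, c * ((K : ℝ) + 1) ^ m * Real.exp (-(μ * K)) ≤ δ := by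
  have hr : |Real.exp (-μ)| < 1 := by
    rw [abs_of_pos (Real.exp_pos _)]
    exact Real.exp_lt_one_iff.mpr (by linarith)
  have h := ((tendsto_pow_const_mul_const_pow_of_abs_lt_one m hr).comp
    (tendsto_add_atTop_nat 1)).const_mul (c * Real.exp μ)
  rw [mul_zero] at h
  refine (h.eventually (ge_mem_nhds hδ)).mono fun K hK => le_trans (le_of_eq ?_) hK
  have e : Real.exp (-(μ * K)) = Real.exp μ * Real.exp (-μ) ^ (K + 1) := by
    rw [← Real.exp_nat_mul, ← Real.exp_add]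
    push_cast
    ring_nf
  rw [e, Function.comp_apply]
  push_cast
  ring

theorem par1 {n p : ℕ} (hn : 1 ≤ n) (hp : 1 ≤ p) {θ : ℝ} (hθ : (n : ℝ) < θ * p) :
    ∃ β ε : ℝ, 0 < β ∧ 0 < ε ∧ ε < 1 / 2 ∧ β * (n + ε) < θ ∧
      1 < β * p * (1 - ε) ^ 4 * (1 - 2 * ε) := by
  have hn' : (0 : ℝ) < n := by exact_mod_cast hn
  have hp' : (0 : ℝ) < p := by exact_mod_cast hp
  obtain ⟨β, b1, b2⟩ := exists_between (show 1 / (p : ℝ) < θ / n by
    rw [div_lt_div_iff₀ hp' hn', one_mul]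
    exact hθ)
  have c1 : Continuous fun ε : ℝ => β * (n + ε) := by fun_prop
  have c2 : Continuous fun ε : ℝ => β * p * (1 - ε) ^ 4 * (1 - 2 * ε) := by fun_prop
  have e1 : ∀ᶠ ε : ℝ in 𝓝 0, β * (n + ε) < θ := (c1.tendsto 0).eventually (gt_mem_nhds (by
    rw [add_zero]
    exact (lt_div_iff₀ hn').mp b2))
  have e2 : ∀ᶠ ε : ℝ in 𝓝 0, 1 < β * p * (1 - ε) ^ 4 * (1 - 2 * ε) :=
    (c2.tendsto 0).eventually (lt_mem_nhds (by
      have h := (div_lt_iff₀ hp').mp b1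
      simpa using h))
  have e3 : ∀ᶠ ε : ℝ in 𝓝 0, ε < 1 / 2 := gt_mem_nhds (by norm_num)
  obtain ⟨ε, ⟨h1, h2, h3⟩, h4⟩ := (((e1.and (e2.and e3)).filter_mono
    (nhdsWithin_le_nhds (s := Ioi 0))).and self_mem_nhdsWithin).exists
  exact ⟨β, ε, (one_div_pos.mpr hp').trans b1, h4, h3, h1, h2⟩

theorem par2 (M : ℕ) {p : ℕ} (hp : 1 ≤ p) {ε : ℝ} (h0 : 0 < ε) (h1 : ε < 1 / 2) :
    ∃ (L : ℕ) (μ₁ : ℝ), 1 ≤ L ∧ 0 < μ₁ ∧ μ₁ ≤ 1 ∧ ∀ d, 1 ≤ d → d ≤ M → ∃ k, k + p ^ d + d = L ∧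
      ((1 - ε) * p * L) ^ d ≤ d.factorial * ((p ^ d * (k + d).choose d : ℕ) : ℝ) ∧
      ∀ μ, 0 < μ → μ ≤ μ₁ → d * p * (1 - ε) ^ 3 / μ ≤
        d * ((1 - ε) * p * L) * Real.exp (-(μ * L)) / (μ * L) - (d + 2) := by
  obtain ⟨L, hL⟩ := exists_nat_ge (((M + p ^ M + 1 : ℕ) : ℝ) / ε)
  rw [div_le_iff₀ h0] at hL
  have hL0 : (0 : ℝ) ≤ L := Nat.cast_nonneg L
  have hL1 : M + p ^ M + 1 ≤ L := by
    have h : ((M + p ^ M + 1 : ℕ) : ℝ) ≤ L := hL.trans (mul_le_of_le_one_right hL0 (by linarith))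
    exact_mod_cast h
  have hL2 : (0 : ℝ) < L := by exact_mod_cast (show 0 < L by omega)
  have hp' : (1 : ℝ) ≤ p := by exact_mod_cast hp
  have he : 0 < 1 - ε := by linarith
  refine ⟨L, min (ε / L) ((1 - ε) ^ 2 * ε / 3), by omega, by positivity,
    (min_le_left _ _).trans ?_, fun d d1 d2 => ?_⟩
  · have h : (1 : ℝ) ≤ L := by exact_mod_cast (show 1 ≤ L by omega)
    rw [div_le_one hL2]
    linarith
  have h2 : p ^ d ≤ p ^ M := Nat.pow_le_pow_right hp d2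
  obtain ⟨k, hk⟩ : ∃ k, k + p ^ d + d = L := ⟨L - (p ^ d + d), by omega⟩
  refine ⟨k, hk, ?_, fun μ m0 m1 => ?_⟩
  · have h3 : (1 - ε) * L ≤ k := by
      have h4 : (L : ℝ) ≤ k + (M + p ^ M + 1 : ℕ) := by
        exact_mod_cast (show L ≤ k + (M + p ^ M + 1) by omega)
      linarith
    have h4 : (k : ℝ) ^ d ≤ d.factorial * (k + d).choose d := by exact_mod_cast par_choose k d
    have h5 := mul_le_mul_of_nonneg_left
      ((pow_le_pow_left₀ (by positivity) h3 d).trans h4) (show (0 : ℝ) ≤ p ^ d by positivity)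
    rw [mul_right_comm, mul_pow]
    push_cast
    linarith
  · have d1' : (1 : ℝ) ≤ d := by exact_mod_cast d1
    have h3 : μ * L ≤ ε := (le_div_iff₀ hL2).mp (m1.trans (min_le_left _ _))
    have h4 : μ * 3 ≤ (1 - ε) ^ 2 * ε := (le_div_iff₀ (by norm_num)).mp (m1.trans (min_le_right _ _))
    have h5 : 1 - ε ≤ Real.exp (-(μ * L)) := by linarith [Real.add_one_le_exp (-(μ * L))]
    have e : d * ((1 - ε) * p * L) * Real.exp (-(μ * L)) / (μ * L) - (d + 2) =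
        (d * p * (1 - ε) * Real.exp (-(μ * L)) - (d + 2) * μ) / μ := by
      field_simp
    rw [e]
    refine div_le_div_of_nonneg_right ?_ m0.le
    have h6 := mul_le_mul_of_nonneg_left h5 (show 0 ≤ d * p * (1 - ε) by positivity)
    have h7 := mul_le_mul_of_nonneg_left h4 (show (0 : ℝ) ≤ d * p by positivity)
    have h8 := mul_le_mul_of_nonneg_left hp' (show (0 : ℝ) ≤ d * μ by positivity)
    have h9 := mul_le_mul_of_nonneg_left d1' m0.le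
    linarith

theorem par3 (M n C L : ℕ) (hL : 1 ≤ L) {p : ℕ} (hp : 1 ≤ p) {ε μ₀ : ℝ} (h0 : 0 < ε)
    (h1 : ε < 1 / 2) (hμ : 0 < μ₀) :
    ∃ K : ℕ, L ≤ K ∧ 1 / μ₀ ≤ K ∧ ∀ d ≤ M, ∀ μ, μ₀ ≤ μ →
      ((C * (K + 1) ^ n : ℕ) : ℝ) * (d / (μ * L) * Real.exp (-(μ * K)) *
        ((1 - ε) * p * L * (C * (K + 1) ^ n : ℕ) +
          L * d.factorial * ((C * (K + 1) ^ n : ℕ) : ℝ) ^ 2)) ≤
        ε * (d * p * (1 - ε) ^ 3 / μ) := by
  obtain ⟨K, ⟨k1, k2⟩, k3⟩ := (((eventually_ge_atTop L).and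
    (tendsto_natCast_atTop_atTop.eventually_ge_atTop (1 / μ₀))).and
      (par_lim (n * 3) ((p + M.factorial) * C ^ 3) hμ (show 0 < ε / 8 by positivity))).exists
  refine ⟨K, k1, k2, fun d hd μ hm => ?_⟩
  have hL' : (0 : ℝ) < L := by exact_mod_cast hL
  have hp' : (1 : ℝ) ≤ p := by exact_mod_cast hp
  have m0 : 0 < μ := hμ.trans_le hm
  have e3 : ((C * (K + 1) ^ n : ℕ) : ℝ) ^ 3 = C ^ 3 * ((K : ℝ) + 1) ^ (n * 3) := by
    push_cast
    rw [mul_pow, pow_mul]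
  rw [mul_assoc ((p : ℝ) + _), ← e3] at k3
  generalize C * (K + 1) ^ n = N at k3 ⊢
  have h2 : (N : ℝ) ^ 2 ≤ N ^ 3 := by
    rcases Nat.eq_zero_or_pos N with rfl | h
    · simp
    · exact pow_le_pow_right₀ (by exact_mod_cast h) (by norm_num)
  have h3 : (d.factorial : ℝ) ≤ M.factorial := by exact_mod_cast Nat.factorial_le hd
  have h4 : Real.exp (-(μ * K)) ≤ Real.exp (-(μ₀ * K)) :=
    Real.exp_le_exp.mpr (neg_le_neg (mul_le_mul_of_nonneg_right hm (Nat.cast_nonneg K)))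
  have h5 : (1 - ε) * p * N ^ 2 + d.factorial * N ^ 3 ≤ (p + M.factorial) * N ^ 3 := by
    have h6 := mul_le_mul_of_nonneg_left h2 (show (0 : ℝ) ≤ p by positivity)
    have h7 := mul_le_mul_of_nonneg_right h3 (show (0 : ℝ) ≤ N ^ 3 by positivity)
    have h8 : 0 ≤ ε * p * N ^ 2 := by positivity
    linarith
  have h6 : (1 / 2 : ℝ) ^ 3 ≤ (1 - ε) ^ 3 := pow_le_pow_left₀ (by norm_num) (by linarith) 3
  have h7 : ε / 8 ≤ ε * (p * (1 - ε) ^ 3) := by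
    have h8 := mul_le_mul hp' h6 (by norm_num) (by positivity)
    have h9 := mul_le_mul_of_nonneg_left h8 h0.le
    linarith
  have h8 := (mul_le_mul h5 h4 (Real.exp_pos _).le (by positivity)).trans (k3.trans h7)
  have h9 := mul_le_mul_of_nonneg_left h8 (show 0 ≤ d / μ by positivity)
  refine le_trans (le_of_eq ?_) (h9.trans (le_of_eq ?_))
  · field_simp
  · ring

theorem par4 (D : ℕ) {b₀ ε : ℝ} (hb : 0 < b₀) (h0 : 0 < ε) :
    ∃ A₀ : ℝ, 1 ≤ A₀ ∧ ∀ b, b₀ ≤ b → D * Real.exp (-(b * (A₀ - 1))) ≤ ε := by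
  have ht : 0 ≤ D / (ε * b₀) := by positivity
  refine ⟨1 + D / (ε * b₀), by linarith, fun b h => ?_⟩
  rw [add_sub_cancel_left, Real.exp_neg, ← div_eq_mul_inv, div_le_iff₀ (Real.exp_pos _)]
  have h1 := mul_le_mul_of_nonneg_right h ht
  have h2 := Real.add_one_le_exp (b * (D / (ε * b₀)))
  have h3 : ε * (b₀ * (D / (ε * b₀))) = D := by field_simp
  have h4 : b₀ * (D / (ε * b₀)) ≤ Real.exp (b * (D / (ε * b₀))) := by linarith
  exact h3.symm.le.trans (mul_le_mul_of_nonneg_left h4 h0.le)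

end Vale.Agent.P271
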