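import Vale.Agent.P271.C.Dom

/-! P271 C/Bnd: elementary bounds for the partition function.

Plan. `Zf_upper`: `Zf_eq`; `(k + 1) ^ n ≤ n! (2 / μ) ^ n exp (μ (k + 1) / 2)`
(`Real.pow_div_factorial_le_exp`), `∑ k, wk μ K k * exp (μ k / 2) ≤ 5` (geometric sum,
`1 - exp (-μ) ≤ 2 (1 - exp (-μ / 2))`). `Zf_lower`: `k = ⌊1 / (μ (1 + β c))⌋₊ ≤ K`; each counted term is
at least `exp (-1)`; `(k + n).choose n ≥ (k + 1) ^ n / n!`; `1 + β c ≤ max 1 (n β) * exp (c / n)`.
`exp_le_of_min`: derivative at `σ = 1` from the right of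
`σ ↦ log (∑ exp (-σ X i)) + r log σ` is nonnegative (`HasDerivAt`, slope limit; or
`ge_of_tendsto` with `hasDerivAt_iff_tendsto_slope`). `Zf_shift`: the derivative at `M = 0` of
`t M - log Zf κ (a - M κ)` is positive. Auxiliary names start with `bnd_`. -/

open MeasureTheory Set Filter Topology
open scoped ContDiff ENNReal ComplexConjugate

noncomputable section

namespace Vale.Agent.P271

theorem Zf_pos {ι : Type} [Fintype ι] [Nonempty ι] (κ : ι → ℕ) (a : ι → ℝ) (μ b : ℝ) :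
    0 < Zf κ a μ b := by
  exact Finset.sum_pos (fun i _ => Real.exp_pos _) Finset.univ_nonempty

theorem Zf_anti {ι : Type} [Fintype ι] (κ : ι → ℕ) {a a' : ι → ℝ} (h : ∀ i, a i ≤ a' i) (μ : ℝ)
    {b : ℝ} (hb : 0 ≤ b) : Zf κ a' μ b ≤ Zf κ a μ b := by
  exact Finset.sum_le_sum fun i _ =>
    Real.exp_le_exp.2 (sub_le_sub_left (mul_le_mul_of_nonneg_left (h i) hb) _)

theorem bnd_wk {μ : ℝ} (hμ : 0 ≤ μ) {K k : ℕ} (hk : k ≤ K) :
    wk μ K k * Real.exp (μ / 2 * k) ≤ 2 * wk (μ / 2) K k := by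
  have e : Real.exp (-(μ * k)) * Real.exp (μ / 2 * k) = Real.exp (-(μ / 2 * k)) := by
    rw [← Real.exp_add]
    congr 1
    ring
  unfold wk
  split_ifs with h
  · rw [mul_assoc, e, ← mul_assoc]
    refine mul_le_mul_of_nonneg_right ?_ (Real.exp_pos _).le
    have e2 : Real.exp (-μ) = Real.exp (-(μ / 2)) ^ 2 := by
      rw [← Real.exp_nat_mul]
      congr 1
      push_cast
      ring
    rw [e2]
    nlinarith [sq_nonneg (1 - Real.exp (-(μ / 2)))]
  · obtain rfl : k = K := by omega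
    rw [e]
    linarith [Real.exp_pos (-(μ / 2 * k))]

theorem Zf_upper (n C : ℕ) : ∃ C' : ℝ, ∀ (K : ℕ) (ι : Type) [Fintype ι] [Nonempty ι] (κ : ι → ℕ),
    (∀ i, κ i ≤ K) → (∀ k ≤ K, (Finset.univ.filter fun i => κ i ≤ k).card ≤ C * (k + 1) ^ n) →
    ∀ μ b : ℝ, 0 < μ → μ ≤ 1 → Real.log (Zf κ (fun _ => 0) μ b) ≤ C' - n * Real.log μ := by
  refine ⟨Real.log ((C + 1) * (n.factorial * 2 ^ n * Real.exp 1) * 2),
    fun K ι _ _ κ hκ hc μ b hμ h1 => ?_⟩
  rw [← Real.log_pow, ← Real.log_div (by positivity) (by positivity)]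
  refine Real.log_le_log (Zf_pos _ _ _ _) ?_
  have h2 := dom_sum (μ / 2) (Nat.zero_le K)
  rw [Nat.cast_zero, mul_zero, neg_zero, Real.exp_zero, ← Finset.range_eq_Ico] at h2
  rw [Zf_eq hκ]
  refine le_of_le_of_eq ?_ ((congrArg (_ * ·) h2).trans (mul_one _))
  rw [Finset.mul_sum]
  refine Finset.sum_le_sum fun k hk => ?_
  have hk' : k ≤ K := Nat.lt_succ_iff.1 (Finset.mem_range.1 hk)
  have h3 : ∑ i with κ i ≤ k, Real.exp (-(b * 0)) ≤ (C + 1 : ℝ) * ((k : ℝ) + 1) ^ n := by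
    rw [mul_zero, neg_zero, Real.exp_zero, Finset.sum_const, nsmul_one]
    refine le_trans ?_ (mul_le_mul_of_nonneg_right (le_add_of_nonneg_right zero_le_one)
      (by positivity))
    exact_mod_cast hc k hk'
  have h4 : ((k : ℝ) + 1) ^ n ≤
      n.factorial * 2 ^ n * Real.exp 1 / μ ^ n * Real.exp (μ / 2 * k) := by
    have h5 := Real.pow_div_factorial_le_exp (μ / 2 * (k + 1)) (by positivity) n
    have h6 : Real.exp (μ / 2 * (k + 1)) ≤ Real.exp 1 * Real.exp (μ / 2 * k) := by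
      rw [← Real.exp_add]
      exact Real.exp_le_exp.2 (by linarith)
    have h7 := h5.trans h6
    rw [div_le_iff₀ (by positivity), mul_pow, div_pow, div_mul_eq_mul_div,
      div_le_iff₀ (by positivity)] at h7
    rw [div_mul_eq_mul_div, le_div_iff₀ (by positivity)]
    linarith
  calc _ ≤ wk μ K k * ((C + 1 : ℝ) * (n.factorial * 2 ^ n * Real.exp 1 / μ ^ n *
        Real.exp (μ / 2 * k))) := mul_le_mul_of_nonneg_left
        (h3.trans (mul_le_mul_of_nonneg_left h4 (by positivity))) (wk_nonneg hμ.le K k)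
    _ = (C + 1 : ℝ) * (n.factorial * 2 ^ n * Real.exp 1) / μ ^ n *
        (wk μ K k * Real.exp (μ / 2 * k)) := by ring
    _ ≤ (C + 1 : ℝ) * (n.factorial * 2 ^ n * Real.exp 1) / μ ^ n * (2 * wk (μ / 2) K k) :=
        mul_le_mul_of_nonneg_left (bnd_wk hμ.le hk') (by positivity)
    _ = _ := by ring

theorem Zf_lower {n : ℕ} (hn : 1 ≤ n) {β : ℝ} (hβ : 0 < β) : ∃ C' : ℝ, ∀ (K : ℕ) (ι : Type)
    [Fintype ι] (κ : ι → ℕ) (a : ι → ℝ) (c μ : ℝ), 0 ≤ c → 0 < μ → 1 / μ ≤ K →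
    (∀ k ≤ K, (k + n).choose n ≤ (Finset.univ.filter fun i => κ i ≤ k ∧ a i ≤ k * c).card) →
    -C' - n * Real.log μ ≤ c + Real.log (Zf κ a μ (β * μ)) := by
  refine ⟨1 + Real.log n.factorial + n * Real.log (max 1 (n * β)),
    fun K ι _ κ a c μ hc hμ hK h => ?_⟩
  have hn' : (0 : ℝ) < n := by exact_mod_cast hn
  have h1 : 1 ≤ 1 + β * c := le_add_of_nonneg_right (by positivity)
  have h2 : 0 < μ * (1 + β * c) := by positivity
  obtain ⟨k, hk⟩ : ∃ k, k = ⌊1 / (μ * (1 + β * c))⌋₊ := ⟨_, rfl⟩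
  have h3 : (k : ℝ) ≤ 1 / (μ * (1 + β * c)) := hk ▸ Nat.floor_le (by positivity)
  have h4 : 1 / (μ * (1 + β * c)) ≤ k + 1 := hk ▸ (Nat.lt_floor_add_one _).le
  have h5 : k ≤ K := by
    have := h3.trans ((one_div_le_one_div_of_le hμ (le_mul_of_one_le_right hμ.le h1)).trans hK)
    exact_mod_cast this
  have h6 : (1 / (μ * (1 + β * c))) ^ n / n.factorial * Real.exp (-1) ≤ Zf κ a μ (β * μ) := by
    have h7 : ((k + n + 1 - n : ℕ) : ℝ) ^ n / n.factorial ≤ (k + n).choose n :=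
      Nat.pow_le_choose n (k + n)
    rw [show k + n + 1 - n = k + 1 by omega, Nat.cast_succ] at h7
    have h8 : (1 / (μ * (1 + β * c))) ^ n / n.factorial ≤
        ((Finset.univ.filter fun i => κ i ≤ k ∧ a i ≤ k * c).card : ℝ) :=
      (div_le_div_of_nonneg_right (pow_le_pow_left₀ (by positivity) h4 n) (by positivity)).trans
        (h7.trans (by exact_mod_cast h k h5))
    refine (mul_le_mul_of_nonneg_right h8 (Real.exp_pos _).le).trans ?_
    rw [← nsmul_eq_mul]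
    refine (Finset.card_nsmul_le_sum _ (fun i => Real.exp (-(μ * κ i) - β * μ * a i)) _
      fun i hi => Real.exp_le_exp.2 ?_).trans
        (Finset.sum_le_univ_sum_of_nonneg fun i => (Real.exp_pos _).le)
    obtain ⟨h9, h10⟩ := (Finset.mem_filter.1 hi).2
    have h11 : μ * κ i ≤ μ * k := mul_le_mul_of_nonneg_left (by exact_mod_cast h9) hμ.le
    have h12 := mul_le_mul_of_nonneg_left h10 (mul_pos hβ hμ).le
    rw [le_div_iff₀ h2] at h3
    linarith
  have h7 := Real.log_le_log (by positivity) h6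
  rw [Real.log_mul (by positivity) (by positivity), Real.log_exp,
    Real.log_div (by positivity) (by positivity), Real.log_pow, one_div, Real.log_inv,
    Real.log_mul (by positivity) (by positivity)] at h7
  have h8 : 1 + β * c ≤ max 1 (n * β) * Real.exp (c / n) := by
    have h9 := mul_le_mul_of_nonneg_right (le_max_right 1 (n * β)) (div_nonneg hc hn'.le)
    have h10 : n * β * (c / n) = β * c := by field_simp
    have h11 := mul_le_mul_of_nonneg_left (Real.add_one_le_exp (c / n))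
      (zero_le_one.trans (le_max_left 1 (n * β)))
    linarith [le_max_left 1 (n * β)]
  have h9 := mul_le_mul_of_nonneg_left (Real.log_le_log (by positivity) h8) hn'.le
  rw [Real.log_mul (by positivity) (by positivity), Real.log_exp, mul_add,
    mul_div_cancel₀ _ hn'.ne'] at h9
  linarith

theorem exp_le_of_min {ι : Type} [Fintype ι] [Nonempty ι] (κ : ι → ℕ) {a : ι → ℝ}
    (ha : ∀ i, 0 ≤ a i) {β μ μ₁ r : ℝ} (hβ : 0 ≤ β) (hμ : 0 < μ) (h₁ : μ < μ₁)
    (h : ∀ μ' ∈ Icc μ μ₁, Real.log (Zf κ a μ (β * μ)) + r * Real.log μ ≤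
      Real.log (Zf κ a μ' (β * μ')) + r * Real.log μ') :
    ∑ i, μ * κ i * Real.exp (-(μ * κ i) - β * μ * a i) ≤ r * Zf κ a μ (β * μ) := by
  have hZ := Zf_pos κ a μ (β * μ)
  have h1 : HasDerivAt (fun x => Zf κ a x (β * x))
      (∑ i, Real.exp (-(μ * κ i) - β * μ * a i) * (-κ i - β * a i)) μ :=
    HasDerivAt.fun_sum fun i _ => ((hasDerivAt_mul_const (κ i : ℝ)).fun_neg.fun_sub
      (((hasDerivAt_const_mul β).mul_const (a i)))).exp
  have h2 := ((h1.log hZ.ne').fun_add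
    ((Real.hasDerivAt_log hμ.ne').const_mul r)).tendsto_slope_zero_right
  have h3 := ge_of_tendsto h2 (b := 0) (by
    filter_upwards [Ioc_mem_nhdsGT (sub_pos.2 h₁)] with t ht
    exact mul_nonneg (inv_pos.2 ht.1).le
      (sub_nonneg.2 (h _ ⟨by linarith [ht.1], by linarith [ht.2]⟩)))
  have h4 := mul_nonneg h3 (mul_pos hμ hZ).le
  have h5 : ∀ S : ℝ, (S / Zf κ a μ (β * μ) + r * μ⁻¹) * (μ * Zf κ a μ (β * μ)) =
      μ * S + r * Zf κ a μ (β * μ) := fun S => by field_simp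
  rw [h5, Finset.mul_sum, ← neg_le_iff_add_nonneg', ← Finset.sum_neg_distrib] at h4
  refine le_trans (Finset.sum_le_sum fun i _ => ?_) h4
  have h6 := mul_nonneg (mul_nonneg hμ.le (mul_nonneg hβ (ha i)))
    (Real.exp_pos (-(μ * κ i) - β * μ * a i)).le
  linarith

theorem Zf_shift {ι : Type} [Fintype ι] [Nonempty ι] (κ : ι → ℕ) (a : ι → ℝ) {μ b t : ℝ}
    (h : ∑ i, b * κ i * Real.exp (-(μ * κ i) - b * a i) < t * Zf κ a μ b) :
    ∃ M₀ > (0 : ℝ), ∀ M ∈ Ioc 0 M₀,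
      Real.log (Zf κ (fun i => a i - M * κ i) μ b) ≤ Real.log (Zf κ a μ b) + t * M := by
  have hZ := Zf_pos κ a μ b
  have e : (fun i => a i - 0 * (κ i : ℝ)) = a := by simp
  have h1 : HasDerivAt (fun M : ℝ => Zf κ (fun i => a i - M * κ i) μ b)
      (∑ i, Real.exp (-(μ * κ i) - b * (a i - 0 * κ i)) * (-(b * -κ i))) 0 :=
    HasDerivAt.fun_sum fun i _ =>
      ((((hasDerivAt_mul_const (κ i : ℝ)).const_sub (a i)).const_mul b).const_sub _).exp
  have h2 := ((hasDerivAt_const_mul t).fun_sub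
    (h1.log (Zf_pos _ _ _ _).ne')).tendsto_slope_zero_right
  have h3 := h2.eventually (lt_mem_nhds (a := 0) (by
    rw [e, sub_pos, div_lt_iff₀ hZ]
    refine lt_of_eq_of_lt (Finset.sum_congr rfl fun i _ => ?_) h
    rw [zero_mul, sub_zero]
    ring))
  obtain ⟨M₀, h4, h5⟩ := mem_nhdsGT_iff_exists_Ioc_subset.1 h3
  refine ⟨M₀, h4, fun M hM => ?_⟩
  have h6 := (mul_pos_iff_of_pos_left (inv_pos.2 hM.1)).1 (h5 hM)
  rw [e, zero_add] at h6
  linarith

end Vale.Agent.P271
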