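import Vale.Agent.P271.Defs
import Vale.Agent.P245.PL

/-! P271 C/BM: discrete Brunn-Minkowski.

Plan. For a finset `S` let `Q S = ⋃ α ∈ S, ∏ Ico (α j) (α j + 1)`, a measurable set of volume
`S.card` (disjoint boxes, `Real.volume_pi_Ico`); `x ∈ Q S ↔ (∀ j, 0 ≤ x j) ∧ (⌊x ·⌋₊ ∈ S)`. If
`x ∈ Q S`, `y ∈ Q Γ` then `x + y ∈ Q T`. With `α = |S| ^ (1/d)`, `β = |Γ| ^ (1/d)`, `t = β / (α + β)`
apply `P245.pl_pi` to the indicators of `α⁻¹ • Q S`, `β⁻¹ • Q Γ` (volume one,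
`Measure.addHaar_smul`) and `(α + β)⁻¹ • Q T`. Auxiliary names start with `bm_`. -/

open MeasureTheory Set Filter Topology
open scoped ContDiff ENNReal ComplexConjugate

noncomputable section

namespace Vale.Agent.P271

/-- The union of the unit boxes with corners in `S`. -/
def bmQ {d : ℕ} (S : Finset (Fin d → ℕ)) : Set (Fin d → ℝ) :=
  ⋃ α ∈ S, Set.pi univ fun j => Ico (α j : ℝ) (α j + 1)

theorem bm_mem {d : ℕ} {S : Finset (Fin d → ℕ)} {x : Fin d → ℝ} :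
    x ∈ bmQ S ↔ (∀ j, 0 ≤ x j) ∧ (fun j => ⌊x j⌋₊) ∈ S := by
  simp only [bmQ, mem_iUnion, mem_univ_pi]
  constructor
  · rintro ⟨α, h1, h2⟩
    have h0 : ∀ j, 0 ≤ x j := fun j => (Nat.cast_nonneg _).trans (h2 j).1
    exact ⟨h0, (funext fun j => (Nat.floor_eq_iff (h0 j)).2 (h2 j)).symm ▸ h1⟩
  · exact fun h => ⟨_, h.2, fun j => ⟨Nat.floor_le (h.1 j), Nat.lt_floor_add_one _⟩⟩

theorem bm_meas {d : ℕ} (S : Finset (Fin d → ℕ)) : MeasurableSet (bmQ S) :=
  S.measurableSet_biUnion fun _ _ => MeasurableSet.univ_pi fun _ => measurableSet_Ico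

theorem bm_vol {d : ℕ} (S : Finset (Fin d → ℕ)) : volume (bmQ S) = S.card := by
  rw [bmQ, measure_biUnion_finset (fun α _ β _ hne => ?_)
    fun _ _ => MeasurableSet.univ_pi fun _ => measurableSet_Ico]
  · simp [Real.volume_pi_Ico]
  · refine Set.disjoint_left.2 fun x h1 h2 => hne (funext fun j => ?_)
    have h0 : 0 ≤ x j := (Nat.cast_nonneg _).trans (h1 j trivial).1
    exact ((Nat.floor_eq_iff h0).2 (h1 j trivial)).symm.trans
      ((Nat.floor_eq_iff h0).2 (h2 j trivial))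

theorem bm_int {d : ℕ} (S : Finset (Fin d → ℕ)) {a : ℝ} (ha : 0 < a) :
    ∫⁻ x, ((a • ·) ⁻¹' bmQ S).indicator 1 x = ENNReal.ofReal (S.card / a ^ d) := by
  rw [lintegral_indicator_one ((bm_meas S).preimage (measurable_const_smul a)),
    Measure.addHaar_preimage_smul _ ha.ne', bm_vol, Module.finrank_fin_fun,
    abs_of_pos (by positivity), ← ENNReal.ofReal_natCast, ← ENNReal.ofReal_mul (by positivity),
    div_eq_inv_mul]

theorem bm_disc {d : ℕ} (hd : 1 ≤ d) {S Γ T : Finset (Fin d → ℕ)} (hS : S.Nonempty)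
    (hΓ : Γ.Nonempty) (h : ∀ α ∈ S, ∀ γ ∈ Γ, ∀ e : Fin d → ℕ, (∀ j, e j ≤ 1) → α + γ + e ∈ T) :
    (S.card : ℝ) ^ (1 / d : ℝ) + (Γ.card : ℝ) ^ (1 / d : ℝ) ≤ (T.card : ℝ) ^ (1 / d : ℝ) := by
  have d0 : d ≠ 0 := by omega
  have e : ∀ n : ℕ, ((n : ℝ) ^ (1 / d : ℝ)) ^ d = n := fun n => by
    rw [one_div, Real.rpow_inv_natCast_pow (Nat.cast_nonneg n) d0]
  have s0 : (0 : ℝ) < S.card := Nat.cast_pos.2 hS.card_pos
  have g0 : (0 : ℝ) < Γ.card := Nat.cast_pos.2 hΓ.card_pos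
  have ha := Real.rpow_pos_of_pos s0 (1 / d : ℝ)
  have hb := Real.rpow_pos_of_pos g0 (1 / d : ℝ)
  have ea := e S.card
  have eb := e Γ.card
  generalize (S.card : ℝ) ^ (1 / d : ℝ) = a at *
  generalize (Γ.card : ℝ) ^ (1 / d : ℝ) = b at *
  have hab : 0 < a + b := add_pos ha hb
  have t1 : b / (a + b) < 1 := (div_lt_one hab).2 (lt_add_of_pos_left b ha)
  have m : ∀ (U : Finset (Fin d → ℕ)) (c : ℝ),
      Measurable (((c • ·) ⁻¹' bmQ U).indicator (1 : (Fin d → ℝ) → ℝ≥0∞)) := fun U c =>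
    measurable_one.indicator ((bm_meas U).preimage (measurable_const_smul c))
  have key := P245.pl_pi (div_pos hb hab) t1 d _ _ _ (m S a) (m Γ b) (m T (a + b)) fun x y => by
    by_cases hx : a • x ∈ bmQ S
    swap
    · rw [indicator_of_notMem (s := (a • ·) ⁻¹' bmQ S) hx, ENNReal.zero_rpow_of_pos (sub_pos.2 t1),
        zero_mul]
      exact zero_le
    by_cases hy : b • y ∈ bmQ Γ
    swap
    · rw [indicator_of_notMem (s := (b • ·) ⁻¹' bmQ Γ) hy,
        ENNReal.zero_rpow_of_pos (div_pos hb hab), mul_zero]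
      exact zero_le
    have hz : (a + b) • ((1 - b / (a + b)) • x + (b / (a + b)) • y) ∈ bmQ T := by
      rw [smul_add, smul_smul, smul_smul, mul_div_cancel₀ _ hab.ne', mul_sub,
        mul_div_cancel₀ _ hab.ne', mul_one, add_sub_cancel_right]
      generalize a • x = p at hx
      generalize b • y = q at hy
      rw [bm_mem] at hx hy ⊢
      refine ⟨fun j => add_nonneg (hx.1 j) (hy.1 j), ?_⟩
      have k1 : ∀ j, ⌊p j⌋₊ + ⌊q j⌋₊ ≤ ⌊p j + q j⌋₊ := fun j => Nat.le_floor (by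
        push_cast
        exact add_le_add (Nat.floor_le (hx.1 j)) (Nat.floor_le (hy.1 j)))
      have k2 : ∀ j, ⌊p j + q j⌋₊ ≤ ⌊p j⌋₊ + ⌊q j⌋₊ + 1 := fun j =>
        Nat.lt_succ_iff.1 ((Nat.floor_lt (add_nonneg (hx.1 j) (hy.1 j))).2 (by
          push_cast
          linarith [Nat.lt_floor_add_one (p j), Nat.lt_floor_add_one (q j)]))
      have := h _ hx.2 _ hy.2 (fun j => ⌊p j + q j⌋₊ - (⌊p j⌋₊ + ⌊q j⌋₊)) fun j => by
        have := k2 j
        omega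
      exact (funext fun j => add_tsub_cancel_of_le (k1 j)) ▸ this
    rw [indicator_of_mem (s := (a • ·) ⁻¹' bmQ S) hx, indicator_of_mem (s := (b • ·) ⁻¹' bmQ Γ) hy,
      indicator_of_mem (s := ((a + b) • ·) ⁻¹' bmQ T) hz]
    simp
  rw [bm_int S ha, bm_int Γ hb, bm_int T hab, ea, eb, div_self s0.ne', div_self g0.ne',
    ENNReal.ofReal_one, ENNReal.one_rpow, ENNReal.one_rpow, one_mul, ENNReal.one_le_ofReal,
    one_le_div (by positivity), ← e T.card] at key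
  exact le_of_pow_le_pow_left₀ d0 (by positivity) key

end Vale.Agent.P271
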