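import Vale.Agent.P271.C.Leaf

/-! P271 C/Dom: comparison of weights, and Abel summation.

Plan. `dom_count`: Hall's theorem (`Finset.all_card_le_biUnion_card_iff_exists_injective`) for the sets
`{i' | a i ≤ a' i'}` (for a nonempty `B` take the least value of `a` on `B`) gives an injection, hence a
bijection, `f` with `a i ≤ a' (f i)`. `FlagBasis.card`: the `s i` with `κ i ≤ k` are independent, lie
in `V k` and span it. `dom_level`: for `l` let `U` be the span of the `g i` with `l ≤ a i`; its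
dimension is their number; by `IsLeaf.ncard` for `U` and `le_of_mem_span` (with the least of the
`ℓ (g i)`) there are as many indices `i'` with `κ i' ≤ k`, `l ≤ wt (ℓ (s i'))`. Apply `dom_count` to
the subtypes. `abel`: swap sums; `∑ k ∈ Icc j K, wk μ K k = exp (-μ j)` (downward induction).
Auxiliary names start with `dom_`. -/

open MeasureTheory Set Filter Topology
open scoped ContDiff ENNReal ComplexConjugate

noncomputable section

namespace Vale.Agent.P271

/-- The level weights. -/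
def wk (μ : ℝ) (K k : ℕ) : ℝ :=
  if k < K then (1 - Real.exp (-μ)) * Real.exp (-(μ * k)) else Real.exp (-(μ * K))

theorem wk_nonneg {μ : ℝ} (hμ : 0 ≤ μ) (K k : ℕ) : 0 ≤ wk μ K k := by
  unfold wk
  split_ifs
  · exact mul_nonneg (sub_nonneg.2 (Real.exp_le_one_iff.2 (neg_nonpos.2 hμ))) (Real.exp_pos _).le
  · exact (Real.exp_pos _).le

theorem continuous_wk (K k : ℕ) : Continuous fun μ => wk μ K k := by
  unfold wk
  split_ifs <;> fun_prop

theorem dom_sum (μ : ℝ) {K j : ℕ} (hj : j ≤ K) :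
    ∑ k ∈ Finset.Ico j (K + 1), wk μ K k = Real.exp (-(μ * j)) := by
  induction hj using Nat.decreasingInduction with
  | self => simp [wk]
  | of_succ k hk ih =>
    rw [Finset.sum_eq_sum_Ico_succ_bot (by omega), ih, wk, if_pos hk, sub_mul, ← Real.exp_add]
    push_cast
    rw [show -μ + -(μ * k) = -(μ * (k + 1)) by ring]
    ring

theorem abel {ι : Type} [Fintype ι] {κ : ι → ℕ} {K : ℕ} (hκ : ∀ i, κ i ≤ K) (μ : ℝ) (f : ι → ℝ) :
    ∑ i, Real.exp (-(μ * κ i)) * f i =
      ∑ k ∈ Finset.range (K + 1), wk μ K k * ∑ i with κ i ≤ k, f i := by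
  simp only [Finset.sum_filter, Finset.mul_sum]
  rw [Finset.sum_comm]
  refine Finset.sum_congr rfl fun i _ => ?_
  have e : Finset.Ico (κ i) (K + 1) = (Finset.range (K + 1)).filter fun k => κ i ≤ k := by
    ext k
    simp only [Finset.mem_Ico, Finset.mem_filter, Finset.mem_range, and_comm]
  rw [← dom_sum μ (hκ i), e, Finset.sum_filter, Finset.sum_mul]
  refine Finset.sum_congr rfl fun k _ => ?_
  split_ifs <;> simp

theorem Zf_eq {ι : Type} [Fintype ι] {κ : ι → ℕ} {K : ℕ} (hκ : ∀ i, κ i ≤ K) (a : ι → ℝ)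
    (μ b : ℝ) : Zf κ a μ b =
      ∑ k ∈ Finset.range (K + 1), wk μ K k * ∑ i with κ i ≤ k, Real.exp (-(b * a i)) := by
  rw [← abel hκ, Zf]
  refine Finset.sum_congr rfl fun i _ => ?_
  rw [sub_eq_add_neg, Real.exp_add]

theorem dom_count {ι ι' : Type} [Fintype ι] [Fintype ι'] (hc : Fintype.card ι = Fintype.card ι')
    {a : ι → ℝ} {a' : ι' → ℝ}
    (h : ∀ l, (Finset.univ.filter fun i => l ≤ a i).card ≤
      (Finset.univ.filter fun i => l ≤ a' i).card) {φ : ℝ → ℝ} (hφ : Antitone φ) :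
    ∑ i, φ (a' i) ≤ ∑ i, φ (a i) := by
  classical
  obtain ⟨f, hf, h1⟩ := (Finset.all_card_le_biUnion_card_iff_exists_injective
    fun i => Finset.univ.filter fun i' => a i ≤ a' i').1 (by
      intro B
      rcases B.eq_empty_or_nonempty with rfl | hB
      · simp
      obtain ⟨i, hi, hm⟩ := B.exists_min_image a hB
      refine le_trans (Finset.card_le_card fun j hj => ?_) ((h (a i)).trans (Finset.card_le_card
        (Finset.subset_biUnion_of_mem (fun i => Finset.univ.filter fun i' => a i ≤ a' i') hi)))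
      exact Finset.mem_filter.2 ⟨Finset.mem_univ _, hm j hj⟩)
  rw [← ((Fintype.bijective_iff_injective_and_card f).2 ⟨hf, hc⟩).sum_comp fun i => φ (a' i)]
  exact Finset.sum_le_sum fun i _ => hφ (Finset.mem_filter.1 (h1 i)).2

variable {A Λ : Type} [AddCommGroup A] [Module ℂ A] [LinearOrder Λ] {ℓ : A → Λ}
  {V : ℕ → Submodule ℂ A} {K : ℕ}

theorem FlagBasis.card (hV : Monotone V) {ι : Type} [Fintype ι] {s : ι → A} {κ : ι → ℕ}
    (h : FlagBasis V K s κ) {k : ℕ} (hk : k ≤ K) :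
    (Finset.univ.filter fun i => κ i ≤ k).card = Module.finrank ℂ (V k) := by
  have e : V k = Submodule.span ℂ (range fun i : {i // κ i ≤ k} => s i) := by
    refine le_antisymm ((h.span k hk).trans (Submodule.span_mono ?_)) (Submodule.span_le.2 ?_)
    · rintro _ ⟨i, hi, rfl⟩
      exact ⟨⟨i, hi⟩, rfl⟩
    · rintro _ ⟨i, rfl⟩
      exact hV i.2 (h.mem i)
  rw [e, finrank_span_eq_card (b := fun i : {i // κ i ≤ k} => s i)
    (h.li.comp Subtype.val Subtype.val_injective), Fintype.card_subtype]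

theorem dom_sub {ι : Type} (T : Finset ι) (p : ι → Prop) [DecidablePred p] :
    (Finset.univ.filter fun i : T => p i).card = (T.filter p).card := by
  rw [Finset.card_filter, Finset.card_filter, Finset.sum_coe_sort T fun i => if p i then 1 else 0]

theorem dom_fin {ι ι' : Type} (T : Finset ι) (T' : Finset ι') (hc : T.card = T'.card)
    {a : ι → ℝ} {a' : ι' → ℝ}
    (h : ∀ l, (T.filter fun i => l ≤ a i).card ≤ (T'.filter fun i => l ≤ a' i).card)
    {φ : ℝ → ℝ} (hφ : Antitone φ) : ∑ i ∈ T', φ (a' i) ≤ ∑ i ∈ T, φ (a i) := by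
  rw [← Finset.sum_coe_sort T, ← Finset.sum_coe_sort T']
  refine dom_count (a := fun i : T => a i) (a' := fun i : T' => a' i) (by simpa using hc)
    (fun l => ?_) hφ
  rw [dom_sub T fun i => l ≤ a i, dom_sub T' fun i => l ≤ a' i]
  exact h l

theorem dom_level (hV : Monotone V) [FiniteDimensional ℂ (V K)] (h : IsLeaf (V K) ℓ) {wt : Λ → ℝ}
    (hwt : Monotone wt) {ι' : Type} [Fintype ι'] {s : ι' → A} {κ : ι' → ℕ} (hs : FlagBasis V K s κ)
    (hi : Function.Injective fun i => ℓ (s i))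
    (hsur : ∀ k ≤ K, ∀ g ∈ V k, g ≠ 0 → ∃ i, κ i ≤ k ∧ ℓ (s i) = ℓ g) {k : ℕ} (hk : k ≤ K)
    {ι : Type} [Fintype ι] {g : ι → A} (T : Finset ι) (hg : LinearIndependent ℂ fun i : T => g i)
    (hT : ∀ i ∈ T, g i ∈ V k) (hc : T.card = Module.finrank ℂ (V k)) {a : ι → ℝ}
    (ha : ∀ i ∈ T, a i ≤ wt (ℓ (g i))) {φ : ℝ → ℝ} (hφ : Antitone φ) :
    ∑ i with κ i ≤ k, φ (wt (ℓ (s i))) ≤ ∑ i ∈ T, φ (a i) := by
  classical
  refine dom_fin T _ (hc.trans (hs.card hV hk).symm) (a' := fun i => wt (ℓ (s i))) (fun l => ?_) hφ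
  obtain ⟨B, hB⟩ : ∃ B, B = T.filter fun i => l ≤ a i := ⟨_, rfl⟩
  rw [← hB]
  have hm : ∀ i ∈ B, i ∈ T ∧ l ≤ a i := fun i hi => Finset.mem_filter.1 (hB ▸ hi)
  rcases B.eq_empty_or_nonempty with h0 | h0
  · simp [h0]
  obtain ⟨i₀, hi₀, hmin⟩ := B.exists_min_image (fun i => ℓ (g i)) h0
  have hli : LinearIndependent ℂ fun i : B => g i :=
    hg.comp (fun i : B => (⟨i, (hm i i.2).1⟩ : T)) fun i j e => Subtype.ext (congrArg (·.1) e)
  have hU : Submodule.span ℂ (range fun i : B => g i) ≤ V k := Submodule.span_le.2 (by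
    rintro _ ⟨i, rfl⟩
    exact hT i (hm i i.2).1)
  have hU' := hU.trans (hV hk)
  have := Submodule.finiteDimensional_of_le hU'
  have h1 := (h.mono hU').ncard.2
  rw [finrank_span_eq_card hli, Fintype.card_coe] at h1
  rw [← h1]
  refine le_trans (Set.ncard_le_ncard (t := ((((Finset.univ.filter fun i => κ i ≤ k).filter
    fun i => l ≤ wt (ℓ (s i))).image fun i => ℓ (s i) : Finset Λ) : Set Λ)) ?_) ?_
  · rintro _ ⟨u, ⟨hu, hu0⟩, rfl⟩
    obtain ⟨i, h2, h3⟩ := hsur k hk u (hU hu) hu0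
    have h4 : ℓ (g i₀) ≤ ℓ u := h.le_of_mem_span (Submodule.subset_span.trans hU') (by
      rintro _ ⟨j, rfl⟩ _
      exact hmin j j.2) hu hu0
    refine Finset.mem_coe.2 (Finset.mem_image.2 ⟨i, Finset.mem_filter.2
      ⟨Finset.mem_filter.2 ⟨Finset.mem_univ _, h2⟩, ?_⟩, h3⟩)
    rw [h3]
    exact (hm i₀ hi₀).2.trans ((ha i₀ (hm i₀ hi₀).1).trans (hwt h4))
  · rw [Set.ncard_coe_finset]
    exact Finset.card_image_le

end Vale.Agent.P271
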