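import Vale.Agent.P271.C.Leaf

/-! P271 C/Filt: the valuation attached to a finite weighted family.

Plan. Let `F l` be the span of the `g i` with `l ≤ a i`. Build a basis `e : Fin D → W` with weights
`w : Fin D → ℝ` monotone, `0 ≤ w ≤ A₀`, such that for `l > 0` the `e r` with `l ≤ w r` span `F l`
(induction over the finite set of values of `a` from the top, extending independent families with
`exists_linearIndependent_extension` or `LinearIndepOn.extend`; last extend to `W` with weight `0`;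
then order the index type by `(w, any injection into ℕ)` lexicographically). `ℓ f` is the least index
with nonzero coordinate (take `Λ = WithTop _` or `ℝ ×ₗ ℕ`). Auxiliary names start with `filt_`. -/

open MeasureTheory Set Filter Topology
open scoped ContDiff ENNReal ComplexConjugate

noncomputable section

namespace Vale.Agent.P271

theorem filt_min {A J Λ : Type} [AddCommGroup A] [Module ℂ A] [Finite J] [LinearOrder Λ]
    (v : J → A) (r : J → Λ) {S : Set J} {f : A} (hf : f ∈ Submodule.span ℂ (v '' S))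
    (h0 : f ≠ 0) : ∃ j ∈ S, f ∈ Submodule.span ℂ (v '' {k | r j ≤ r k}) := by
  rcases S.eq_empty_or_nonempty with rfl | hS
  · rw [image_empty, Submodule.span_empty] at hf
    exact absurd hf h0
  · obtain ⟨j, hj, hm⟩ := exists_min_image S r (toFinite S) hS
    exact ⟨j, hj, Submodule.span_mono (image_mono hm) hf⟩

theorem filt_gen {A J Λ : Type} [AddCommGroup A] [Module ℂ A] [Finite J] [LinearOrder Λ]
    [Nonempty Λ] (W : Submodule ℂ A) (v : J → A) {r : J → Λ} (hr : Function.Injective r)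
    (hW : W ≤ Submodule.span ℂ (range v)) :
    ∃ ℓ : A → Λ, IsLeaf W ℓ ∧ ∀ f ∈ W, f ≠ 0 → (∃ j, ℓ f = r j) ∧
      f ∈ Submodule.span ℂ (v '' {k | ℓ f ≤ r k}) ∧
      ∀ l, f ∈ Submodule.span ℂ (v '' {k | l ≤ r k}) → l ≤ ℓ f := by
  have h : ∀ f ∈ W, f ≠ 0 → ∃ m : Λ, (∃ j, m = r j) ∧ f ∈ Submodule.span ℂ (v '' {k | m ≤ r k}) ∧
      ∀ l, f ∈ Submodule.span ℂ (v '' {k | l ≤ r k}) → l ≤ m := by
    intro f hf h0
    obtain ⟨j₀, -, h1⟩ := filt_min v r (S := univ) (by rw [image_univ]; exact hW hf) h0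
    obtain ⟨j, hj, hm⟩ := exists_max_image {j | f ∈ Submodule.span ℂ (v '' {k | r j ≤ r k})} r
      (toFinite _) ⟨j₀, h1⟩
    refine ⟨r j, ⟨j, rfl⟩, hj, fun l hl => ?_⟩
    obtain ⟨k, hk, h2⟩ := filt_min v r hl h0
    exact le_trans hk (hm k h2)
  choose! ℓ h1 h2 h3 using h
  refine ⟨ℓ, ⟨fun f hf g hg f0 g0 s0 => ?_, fun f hf f0 c c0 => ?_, fun f hf g hg f0 g0 e => ?_⟩,
    fun f hf f0 => ⟨h1 f hf f0, h2 f hf f0, h3 f hf f0⟩⟩
  · refine h3 _ (W.add_mem hf hg) s0 _ (Submodule.add_mem _ ?_ ?_)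
    · exact Submodule.span_mono (image_mono fun k hk => (min_le_left _ _).trans hk) (h2 f hf f0)
    · exact Submodule.span_mono (image_mono fun k hk => (min_le_right _ _).trans hk) (h2 g hg g0)
  · have s0 : c • f ≠ 0 := smul_ne_zero c0 f0
    exact le_antisymm
      (h3 f hf f0 _ ((Submodule.smul_mem_iff _ c0).mp (h2 _ (W.smul_mem c hf) s0)))
      (h3 _ (W.smul_mem c hf) s0 _ (Submodule.smul_mem _ c (h2 f hf f0)))
  · obtain ⟨j, hj⟩ := h1 f hf f0
    have e1 : v '' {k | r j ≤ r k} ⊆ insert (v j) (v '' {k | r j < r k}) := by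
      rintro _ ⟨k, hk, rfl⟩
      rcases eq_or_lt_of_le (show r j ≤ r k from hk) with h | h
      · exact Or.inl (by rw [hr h])
      · exact Or.inr ⟨k, h, rfl⟩
    have lt : ∀ u ∈ W, u ≠ 0 → u ∈ Submodule.span ℂ (v '' {k | r j < r k}) → r j < ℓ u := by
      intro u hu u0 h
      obtain ⟨k, hk, h4⟩ := filt_min v r h u0
      exact lt_of_lt_of_le hk (h3 u hu u0 _ h4)
    have hf' := h2 f hf f0
    have hg' := h2 g hg g0
    rw [← e] at hg'
    rw [hj] at hf' hg'
    obtain ⟨α, z, hz, ef⟩ := Submodule.mem_span_insert.mp (Submodule.span_mono e1 hf')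
    obtain ⟨β, z', hz', eg⟩ := Submodule.mem_span_insert.mp (Submodule.span_mono e1 hg')
    have hβ : β ≠ 0 := by
      rintro rfl
      rw [zero_smul, zero_add] at eg
      have h4 := lt g hg g0 (eg ▸ hz')
      rw [← e, hj] at h4
      exact lt_irrefl _ h4
    refine ⟨α / β, or_iff_not_imp_left.mpr fun u0 => ?_⟩
    rw [hj]
    refine lt _ (W.sub_mem hf (W.smul_mem _ hg)) u0 ?_
    have e2 : f - (α / β) • g = z - (α / β) • z' := by
      rw [ef, eg, smul_add, smul_smul, div_mul_cancel₀ _ hβ]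
      abel
    rw [e2]
    exact Submodule.sub_mem _ hz (Submodule.smul_mem _ _ hz')

theorem exists_filt {A : Type} [AddCommGroup A] [Module ℂ A] (W : Submodule ℂ A)
    [FiniteDimensional ℂ W] {ι : Type} [Fintype ι] {g : ι → A} (hg : ∀ i, g i ∈ W) {a : ι → ℝ}
    {A₀ : ℝ} (hA : 0 ≤ A₀) (ha : ∀ i, 0 ≤ a i ∧ a i ≤ A₀) :
    ∃ (Λ : Type) (_ : LinearOrder Λ) (ℓ : A → Λ) (wt : Λ → ℝ), IsLeaf W ℓ ∧ Monotone wt ∧
      (∀ i, g i ≠ 0 → a i ≤ wt (ℓ (g i))) ∧
      ∀ f ∈ W, f ≠ 0 → 0 ≤ wt (ℓ f) ∧ wt (ℓ f) ≤ A₀ ∧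
        (0 < wt (ℓ f) → f ∈ Submodule.span ℂ (g '' {i | wt (ℓ f) ≤ a i})) := by
  obtain ⟨D, b, hb⟩ := Submodule.fg_iff_exists_fin_generating_family.mp
    ((Submodule.fg_iff_finiteDimensional W).mpr inferInstance)
  obtain ⟨e, he⟩ := exists_injective_nat (ι ⊕ Fin D)
  have hm : Monotone fun l : ℝ ×ₗ ℕ => (ofLex l).1 := fun l l' h => Prod.Lex.monotone_fst l l' h
  obtain ⟨ℓ, h1, h2⟩ := filt_gen W (Sum.elim g b)
    (r := fun j => (toLex (Sum.elim a (fun _ => 0) j, e j) : ℝ ×ₗ ℕ))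
    (fun j k h => he (congrArg (fun l => (ofLex l).2) h)) (by
      rw [← hb]
      exact Submodule.span_mono (by
        rintro _ ⟨k, rfl⟩
        exact ⟨.inr k, rfl⟩))
  refine ⟨ℝ ×ₗ ℕ, inferInstance, ℓ, fun l => (ofLex l).1, h1, hm, fun i h0 => ?_,
    fun f hf h0 => ?_⟩
  · exact hm ((h2 _ (hg i) h0).2.2 (toLex (a i, e (.inl i)))
      (Submodule.subset_span ⟨.inl i, le_refl (toLex (a i, e (.inl i))), rfl⟩))
  · obtain ⟨⟨j, hj⟩, h3, -⟩ := h2 f hf h0
    refine ⟨?_, ?_, fun h4 => Submodule.span_mono ?_ h3⟩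
    · rw [hj]
      rcases j with i | k
      · exact (ha i).1
      · exact le_rfl
    · rw [hj]
      rcases j with i | k
      · exact (ha i).2
      · exact hA
    · rintro _ ⟨i | k, hk, rfl⟩
      · exact ⟨i, hm hk, rfl⟩
      · exact absurd (hm hk) (not_le.mpr h4)

end Vale.Agent.P271
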