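import Vale.Agent.P271.Defs

/-! P271 C/GS: orthonormal bases adapted to weights.

Plan. `T.card = d`. Choose `τ : Fin d ≃ T` with `a ∘ τ` antitone (`Tuple.sort`). Let `u r` be the
coordinate vector of `s (τ r)` in the basis `e`, an independent family in `EuclideanSpace ℂ (Fin d)`;
`v = InnerProductSpace.gramSchmidtNormed ℂ u` is orthonormal (`gramSchmidtNormed_orthonormal`) and
`v r ∈ span (u '' Iic r)` (`gramSchmidt_mem_span`). `on_limit`: inner products are continuous;
`on_li`: `Orthonormal.linearIndependent` and the coordinate isomorphism.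
Auxiliary names start with `gs_`. -/

open MeasureTheory Set Filter Topology
open scoped ContDiff ENNReal ComplexConjugate

noncomputable section

namespace Vale.Agent.P271

variable {A : Type} [AddCommGroup A] [Module ℂ A] {V : Submodule ℂ A} {d : ℕ}

/-- the coordinate map -/
def gs_map (e : Module.Basis (Fin d) ℂ V) : EuclideanSpace ℂ (Fin d) →ₗ[ℂ] A :=
  V.subtype ∘ₗ e.equivFun.symm.toLinearMap ∘ₗ (WithLp.linearEquiv 2 ℂ (Fin d → ℂ)).toLinearMap

theorem gs_apply (e : Module.Basis (Fin d) ℂ V) (x : EuclideanSpace ℂ (Fin d)) :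
    gs_map e x = ∑ j, x j • (e j : A) := by
  simp [gs_map, Module.Basis.equivFun_symm_apply]

theorem gs_ker (e : Module.Basis (Fin d) ℂ V) : LinearMap.ker (gs_map e) = ⊥ :=
  LinearMap.ker_eq_bot.2 (V.injective_subtype.comp (e.equivFun.symm.injective.comp
    (WithLp.linearEquiv 2 ℂ (Fin d → ℂ)).injective))

theorem gs_surj (e : Module.Basis (Fin d) ℂ V) {x : A} (hx : x ∈ V) : ∃ y, gs_map e y = x :=
  ⟨(WithLp.linearEquiv 2 ℂ (Fin d → ℂ)).symm (e.equivFun ⟨x, hx⟩), by
    simp only [gs_map, LinearMap.comp_apply, LinearEquiv.coe_coe, LinearEquiv.apply_symm_apply,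
      LinearEquiv.symm_apply_apply, Submodule.subtype_apply]⟩

theorem exists_on (e : Module.Basis (Fin d) ℂ V) {ι : Type} {s : ι → A} (T : Finset ι)
    (hs : LinearIndependent ℂ s) (hT : ∀ i ∈ T, s i ∈ V) (hc : T.card = d) (a : ι → ℝ) :
    ∃ (v : Fin d → EuclideanSpace ℂ (Fin d)) (τ : Fin d ≃ T), Orthonormal ℂ v ∧
      ∀ r, ∑ j, v r j • (e j : A) ∈ Submodule.span ℂ (s '' {i | a (τ r) ≤ a i}) := by
  let τ₀ : Fin d ≃ T := (T.equivFinOfCardEq hc).symm
  let τ : Fin d ≃ T := (Tuple.sort fun r => -a (τ₀ r)).trans τ₀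
  have hτ : ∀ r r' : Fin d, r' ≤ r → a (τ r) ≤ a (τ r') := fun r r' h =>
    neg_le_neg_iff.1 (Tuple.monotone_sort (fun r => -a (τ₀ r)) h)
  choose u hu using fun r => gs_surj e (hT _ (τ r).2)
  have hli : LinearIndependent ℂ u := by
    refine LinearIndependent.of_comp (gs_map e) ?_
    have : gs_map e ∘ u = s ∘ fun r => (τ r : ι) := funext hu
    rw [this]
    exact hs.comp _ (Subtype.val_injective.comp τ.injective)
  refine ⟨InnerProductSpace.gramSchmidtNormed ℂ u, τ,
    InnerProductSpace.gramSchmidtNormed_orthonormal hli, fun r => ?_⟩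
  rw [← gs_apply]
  have h1 : InnerProductSpace.gramSchmidtNormed ℂ u r ∈ Submodule.span ℂ (u '' Iic r) :=
    Submodule.smul_mem _ _ (InnerProductSpace.gramSchmidt_mem_span ℂ u le_rfl)
  have h2 := Submodule.mem_map_of_mem (f := gs_map e) h1
  rw [Submodule.map_span] at h2
  refine Submodule.span_mono ?_ h2
  rintro _ ⟨_, ⟨r', hr', rfl⟩, rfl⟩
  exact ⟨τ r', hτ r r' hr', (hu r').symm⟩

theorem on_limit {v : ℕ → Fin d → EuclideanSpace ℂ (Fin d)} {v₀ : Fin d → EuclideanSpace ℂ (Fin d)}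
    (hv : ∀ l, Orthonormal ℂ (v l)) (h : Tendsto v atTop (𝓝 v₀)) : Orthonormal ℂ v₀ := by
  rw [orthonormal_iff_ite]
  intro i j
  have h1 := ((tendsto_pi_nhds.1 h i).inner (𝕜 := ℂ) (tendsto_pi_nhds.1 h j))
  simp only [orthonormal_iff_ite.1 (hv _)] at h1
  exact tendsto_nhds_unique h1 tendsto_const_nhds

theorem on_li (e : Module.Basis (Fin d) ℂ V) {v : Fin d → EuclideanSpace ℂ (Fin d)}
    (hv : Orthonormal ℂ v) : LinearIndependent ℂ fun r => ∑ j, v r j • (e j : A) := by
  simp only [← gs_apply]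
  exact hv.linearIndependent.map' (gs_map e) (gs_ker e)

end Vale.Agent.P271
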