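import Vale.Agent.P271.Defs

/-! P271 C/Layer: a set of `N` lattice points has large total degree.

Plan. `card_deg_lt`: the number of `α : Fin d → ℕ` with `∑ α < r` is at most `(r + d) ^ d / d!` (induction
on `d`, or an injection into `Sym`; `(r + d - 1).choose d ≤ (r + d) ^ d / d!` is
`Nat.choose_le_pow_div`). Layer cake: `min |α| J = ∑ r ∈ Icc 1 J, if r ≤ |α| then 1 else 0`. With
`h ^ d = d! N`, `R = ⌊h⌋₊ - d - 1 ≤ h ≤ J` (if `N ≥ 1`, `h ≤ h ^ d`), the sum is at least
`∑ r ∈ Icc 1 R, (N - (r + d) ^ d / d!) ≥ R N - h ^ (d + 1) / (d + 1)!`, using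
`(d + 1) m ^ d ≤ (m + 1) ^ (d + 1) - m ^ (d + 1)`. If `⌊h⌋₊ < d + 1` the left side is negative.
Auxiliary names start with `layer_`. -/

open MeasureTheory Set Filter Topology
open scoped ContDiff ENNReal ComplexConjugate

noncomputable section

namespace Vale.Agent.P271

theorem card_deg_lt {d : ℕ} (S : Finset (Fin d → ℕ)) (r : ℕ) :
    ((S.filter fun α => ∑ j, α j < r).card : ℝ) ≤ ((r : ℝ) + d) ^ d / d.factorial := by
  have h1 : (S.filter fun α => ∑ j, α j < r).card ≤
      ((Finset.univ : Finset (Fin (d + 1))).finsuppAntidiag r).card := by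
    refine Finset.card_le_card_of_injOn (fun α => Finsupp.equivFunOnFinite.symm
      (Fin.cons (r - ∑ j, α j) α : Fin (d + 1) → ℕ)) (fun α hα => ?_) fun α _ β _ e => ?_
    · have := (Finset.mem_filter.1 (Finset.mem_coe.1 hα)).2
      refine Finset.mem_coe.2 (Finset.mem_finsuppAntidiag.2 ⟨?_, Finset.subset_univ _⟩)
      simp only [Finsupp.equivFunOnFinite_symm_apply_apply, Fin.sum_univ_succ, Fin.cons_zero,
        Fin.cons_succ]
      omega
    · exact (Fin.cons_injective2 (Finsupp.equivFunOnFinite.symm.injective e)).2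
  rw [Finset.card_finsuppAntidiag_nat_eq_choose, Finset.card_univ, Fintype.card_fin,
    show d + 1 + r - 1 = r + d by omega, Nat.choose_symm_add] at h1
  have h2 := Nat.choose_le_pow_div (α := ℝ) d (r + d)
  push_cast at h2
  exact le_trans (Nat.cast_le.2 h1) h2

theorem layer_min (n R : ℕ) :
    R ≤ min n R + ∑ r ∈ Finset.range R, if n < r + 1 then 1 else 0 := by
  induction R with
  | zero => simp
  | succ R ih =>
    rw [Finset.sum_range_succ]
    split_ifs <;> omega

theorem layer_pow (d R : ℕ) : ((d : ℝ) + 1) * ∑ r ∈ Finset.range R, (((r + 1 : ℕ) : ℝ) + d) ^ d ≤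
    ((R : ℝ) + 1 + d) ^ (d + 1) := by
  induction R with
  | zero =>
    rw [Finset.sum_range_zero, mul_zero]
    positivity
  | succ R ih =>
    have h := pow_add_mul_le_add_pow (a := (R : ℝ) + 1 + d) (b := 1) (by positivity)
      (by positivity) (d + 1)
    rw [Finset.sum_range_succ, mul_add]
    push_cast at h ih ⊢
    rw [show (R : ℝ) + 1 + 1 + d = R + 1 + d + 1 by ring]
    linarith

theorem layer {d : ℕ} (hd : 1 ≤ d) (S : Finset (Fin d → ℕ)) {J : ℕ}
    (hJ : d.factorial * S.card ≤ J) {h : ℝ} (h0 : 0 ≤ h) (hh : h ^ d = d.factorial * S.card) :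
    (d : ℝ) / (d + 1) * h * S.card - (d + 2) * S.card ≤
      ∑ α ∈ S, ((min (∑ j, α j) J : ℕ) : ℝ) := by
  have hN : (0 : ℝ) ≤ S.card := Nat.cast_nonneg _
  have hd0 : (0 : ℝ) < d + 1 := by positivity
  have hlt := Nat.lt_floor_add_one h
  have hle := Nat.floor_le h0
  have e : (d : ℝ) / (d + 1) * h * S.card = h * S.card - h * S.card / (d + 1) := by
    field_simp
    ring
  have h1 : 0 ≤ h * S.card / (d + 1) := by positivity
  rw [e]
  by_cases hc : ⌊h⌋₊ < d + 1
  · have h2 : (⌊h⌋₊ : ℝ) ≤ d + 1 := by exact_mod_cast hc.le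
    have h3 : 0 ≤ ∑ α ∈ S, ((min (∑ j, α j) J : ℕ) : ℝ) := by positivity
    nlinarith
  obtain ⟨R, hR⟩ : ∃ R, ⌊h⌋₊ = R + 1 + d := ⟨⌊h⌋₊ - 1 - d, by omega⟩
  rw [hR] at hlt hle
  push_cast at hlt hle
  have hR0 : (0 : ℝ) ≤ R := Nat.cast_nonneg _
  have hd1 : (0 : ℝ) ≤ d := Nat.cast_nonneg _
  have hRJ : R ≤ J := by
    have h2 : h ≤ h ^ d := le_self_pow₀ (by linarith) (by omega)
    have h3 : ((d.factorial : ℝ) * S.card) ≤ J := by exact_mod_cast hJ
    have h4 : (R : ℝ) ≤ J := by linarith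
    exact_mod_cast h4
  have h2 : S.card * R ≤ ∑ α ∈ S, min (∑ j, α j) J +
      ∑ r ∈ Finset.range R, (S.filter fun α => ∑ j, α j < r + 1).card := by
    simp only [Finset.card_filter]
    rw [Finset.sum_comm, ← Finset.sum_add_distrib]
    exact Finset.card_nsmul_le_sum _ _ _ fun α _ => (layer_min _ R).trans
      (Nat.add_le_add_right (min_le_min_left _ hRJ) _)
  have h3 : (S.card : ℝ) * R ≤ ∑ α ∈ S, ((min (∑ j, α j) J : ℕ) : ℝ) +
      ∑ r ∈ Finset.range R, ((S.filter fun α => ∑ j, α j < r + 1).card : ℝ) := by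
    exact_mod_cast h2
  have h4 : ∑ r ∈ Finset.range R, ((S.filter fun α => ∑ j, α j < r + 1).card : ℝ) ≤
      h * S.card / (d + 1) := by
    refine (Finset.sum_le_sum fun r _ => card_deg_lt S (r + 1)).trans ?_
    have hf : (0 : ℝ) < d.factorial := by exact_mod_cast d.factorial_pos
    have h5 := (layer_pow d R).trans (pow_le_pow_left₀ (by positivity) hle (d + 1))
    rw [pow_succ, hh] at h5
    rw [← Finset.sum_div, div_le_div_iff₀ hf hd0]
    linarith
  nlinarith

end Vale.Agent.P271
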