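import Vale.Agent.P271.C.BM
import Vale.Agent.P271.C.Layer
import Vale.Agent.P271.C.Dom

/-! P271 C/Gain: the expected order of vanishing in one class.

Plan. `q = exp (-μ)`, `S k` the image under `α` of `{κ ≤ k}`, `N k` its card, `h k = (d! N k) ^ (1/d)`,
`w k = h k ^ (d + 1) / (d + 1) ≤ (d! D) ^ 2`. By `bm_disc` times `d! ^ (1/d)`: `h (k + L) ≥ h k + H` if
`N k > 0`, `k + L ≤ K`; so `w (k + L) ≥ w k + d! N k H` (also if `N k = 0`). With
`W = ∑ k < K, q ^ k w k`: `W ≥ ∑ k < K - L, q ^ (k + L) w (k + L)`, hence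
`(1 - q ^ L) W ≥ q ^ L d! H ∑ k < K - L, q ^ k N k - L q ^ K (d! D) ^ 2`. By `abel` with `f = 1` the sum
`Σ = ∑ i, exp (-μ κ i)` satisfies `(1 - q) ∑ k < K, q ^ k N k ≤ Σ ≤ (1 - q) ∑ k < K - L, q ^ k N k +
D q ^ (K - L)`. By `abel` and `layer` the right side is at least
`(1 - q) ∑ k < K, q ^ k (d / d! * w k - (d + 2) N k)`. Finally `1 - q ^ L ≤ μ L` and `W ≥ 0` give
`μ L W ≥ (1 - q ^ L) W`. Auxiliary names start with `gain_`. -/

open MeasureTheory Set Filter Topology
open scoped ContDiff ENNReal ComplexConjugate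

noncomputable section

namespace Vale.Agent.P271

theorem gain_seq {M L : ℕ} {μ : ℝ} (hμ : 0 < μ) {N u : ℕ → ℝ} {D B H : ℝ} (hN : ∀ k, N k ≤ D)
    (u0 : ∀ k, 0 ≤ u k) (uB : ∀ k, u k ≤ B) (H0 : 0 ≤ H)
    (hs : ∀ k, k ≤ M → u k + N k * H ≤ u (k + L)) :
    Real.exp (-(μ * L)) * H * ∑ k ∈ Finset.range (M + L + 1), wk μ (M + L) k * N k -
      Real.exp (-(μ * (M + L : ℕ))) * (H * D + L * B) ≤
      μ * L * ∑ k ∈ Finset.range (M + L + 1), wk μ (M + L) k * u k := by
  obtain ⟨e, he⟩ : ∃ e : ℕ → ℝ, e = fun k : ℕ => Real.exp (-(μ * k)) := ⟨_, rfl⟩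
  have e0 : ∀ k, 0 < e k := fun k => by rw [he]; exact Real.exp_pos _
  have ea : ∀ k l, e (k + l) = e k * e l := fun k l => by
    simp only [he, ← Real.exp_add]
    push_cast
    ring_nf
  have e1 : ∀ k, e k ≤ 1 := fun k => by
    rw [he]
    exact Real.exp_le_one_iff.2 (neg_nonpos.2 (by positivity))
  have eL : 1 - e L ≤ μ * L := by
    have := Real.add_one_le_exp (-(μ * L))
    simp only [he]
    linarith
  obtain ⟨c, hc⟩ : ∃ c, c = 1 - Real.exp (-μ) := ⟨_, rfl⟩
  have c0 : 0 ≤ c := hc ▸ sub_nonneg.2 (Real.exp_le_one_iff.2 (neg_nonpos.2 hμ.le))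
  have c1 : c ≤ 1 := hc ▸ sub_le_self _ (Real.exp_pos _).le
  have hw : ∀ k, k < M + L → wk μ (M + L) k = c * e k := fun k hk => by
    rw [wk, if_pos hk, hc, he]
  have B0 : 0 ≤ B := (u0 0).trans (uB 0)
  obtain ⟨U, hU⟩ : ∃ U, U = ∑ k ∈ Finset.range (M + L), e k * u k := ⟨_, rfl⟩
  obtain ⟨A, hA⟩ : ∃ A, A = ∑ k ∈ Finset.range M, e k * N k := ⟨_, rfl⟩
  obtain ⟨U', hU'⟩ : ∃ U', U' = ∑ k ∈ Finset.range M, e k * u k := ⟨_, rfl⟩
  have U0 : 0 ≤ U := hU ▸ Finset.sum_nonneg fun k _ => mul_nonneg (e0 k).le (u0 k)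
  have h1 : e L * (U' + A * H) ≤ U := by
    rw [hU, add_comm M L, Finset.sum_range_add, hU', hA, Finset.sum_mul, ← Finset.sum_add_distrib,
      Finset.mul_sum]
    refine le_add_of_nonneg_of_le (Finset.sum_nonneg fun k _ => mul_nonneg (e0 k).le (u0 k))
      (Finset.sum_le_sum fun k hk => ?_)
    have := mul_le_mul_of_nonneg_left (hs k (Finset.mem_range.1 hk).le) (mul_pos (e0 L) (e0 k)).le
    rw [ea, add_comm L k]
    linarith
  have h2 : U ≤ U' + L * (e M * B) := by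
    rw [hU, Finset.sum_range_add, hU']
    refine add_le_add_right ?_ _
    refine (Finset.sum_le_card_nsmul _ _ (e M * B) fun k _ => ?_).trans (by simp)
    rw [ea, mul_assoc]
    refine mul_le_mul_of_nonneg_left ?_ (e0 M).le
    exact (mul_le_of_le_one_left (u0 _) (e1 k)).trans (uB _)
  have h3 : ∑ k ∈ Finset.range (M + L + 1), wk μ (M + L) k * N k ≤ c * A + e M * D := by
    rw [← Finset.sum_range_add_sum_Ico _ (show M ≤ M + L + 1 by omega), hA, Finset.mul_sum]
    refine add_le_add (le_of_eq (Finset.sum_congr rfl fun k hk => ?_)) ?_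
    · rw [hw k (by have := Finset.mem_range.1 hk; omega), mul_assoc]
    · simp only [he]
      rw [← dom_sum μ (Nat.le_add_right M L), Finset.sum_mul]
      exact Finset.sum_le_sum fun k _ => mul_le_mul_of_nonneg_left (hN k) (wk_nonneg hμ.le _ _)
  have h4 : c * U ≤ ∑ k ∈ Finset.range (M + L + 1), wk μ (M + L) k * u k := by
    rw [Finset.sum_range_succ, hU, Finset.mul_sum]
    refine le_add_of_le_of_nonneg (le_of_eq (Finset.sum_congr rfl fun k hk => ?_))
      (mul_nonneg (wk_nonneg hμ.le _ _) (u0 _))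
    rw [hw k (Finset.mem_range.1 hk), mul_assoc]
  have e2 : Real.exp (-(μ * L)) = e L := by rw [he]
  have e3 : Real.exp (-(μ * (M + L : ℕ))) = e M * e L := by rw [← ea, he]
  rw [e2, e3]
  have eL0 := e0 L
  have eM0 := e0 M
  have k1 := mul_le_mul_of_nonneg_left h3 (mul_nonneg eL0.le H0)
  have k2 := mul_le_mul_of_nonneg_left h4 (show 0 ≤ μ * L by positivity)
  have k3 := mul_le_mul_of_nonneg_left h2 eL0.le
  have k4 := mul_le_mul_of_nonneg_right eL U0
  have k5 : e L * (A * H) - e L * (L * (e M * B)) ≤ μ * L * U := by linarith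
  have k6 := mul_le_mul_of_nonneg_left k5 c0
  have k7 := mul_le_of_le_one_left (show 0 ≤ e L * (L * (e M * B)) by positivity) c1
  linarith

theorem gain_pow {a b H : ℝ} (ha : 0 ≤ a) (H0 : 0 ≤ H) (h : a + H ≤ b) (d : ℕ) :
    a ^ (d + 1) + (d + 1) * a ^ d * H ≤ b ^ (d + 1) := by
  refine le_trans ?_ (pow_le_pow_left₀ (add_nonneg ha H0) h _)
  induction d with
  | zero => simp
  | succ n ih =>
    have h1 := mul_le_mul_of_nonneg_right ih (add_nonneg ha H0)
    have h2 : 0 ≤ ((n : ℝ) + 1) * a ^ n * H * H := by positivity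
    rw [← pow_succ] at h1
    push_cast
    refine le_trans ?_ h1
    rw [pow_succ a (n + 1), pow_succ a n]
    linarith

theorem gain_class {d : ℕ} (hd : 1 ≤ d) {ι : Type} [Fintype ι] {κ : ι → ℕ} {K L D J : ℕ}
    (hκ : ∀ i, κ i ≤ K) (hL : 1 ≤ L) (hLK : L ≤ K) (hD : Fintype.card ι ≤ D)
    (hJ : d.factorial * D ≤ J) {α : ι → Fin d → ℕ} (hα : Function.Injective α)
    {Γ : Finset (Fin d → ℕ)} (hΓ : Γ.Nonempty) {H : ℝ} (H0 : 0 ≤ H)
    (hH : H ^ d ≤ d.factorial * Γ.card)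
    (shift : ∀ i, ∀ γ ∈ Γ, ∀ e : Fin d → ℕ, (∀ j, e j ≤ 1) → ∀ k, κ i ≤ k → k + L ≤ K →
      ∃ i', κ i' ≤ k + L ∧ α i' = α i + γ + e) {μ : ℝ} (hμ : 0 < μ) :
    (d * H * Real.exp (-(μ * L)) / (μ * L) - (d + 2)) * ∑ i, Real.exp (-(μ * κ i)) -
        d / (μ * L) * Real.exp (-(μ * K)) * (H * D + L * d.factorial * D ^ 2) ≤
      ∑ i, Real.exp (-(μ * κ i)) * ((min (∑ j, α i j) J : ℕ) : ℝ) := by
  classical
  obtain ⟨M, rfl⟩ : ∃ M, K = M + L := ⟨K - L, by omega⟩
  have hd0 : d ≠ 0 := by omega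
  have hd1 : (0 : ℝ) < d := by exact_mod_cast hd
  have hL1 : (0 : ℝ) < L := by exact_mod_cast hL
  have hF : (1 : ℝ) ≤ d.factorial := by exact_mod_cast d.factorial_pos
  obtain ⟨T, hT⟩ : ∃ T : ℕ → Finset ι, T = fun k => Finset.univ.filter fun i => κ i ≤ k := ⟨_, rfl⟩
  obtain ⟨S, hS⟩ : ∃ S : ℕ → Finset (Fin d → ℕ), S = fun k => (T k).image α := ⟨_, rfl⟩
  have hSc : ∀ k, (S k).card = (T k).card := fun k => by
    rw [hS]
    exact Finset.card_image_of_injective _ hα
  have hTD : ∀ k, (S k).card ≤ D := fun k => (hSc k).le.trans ((Finset.card_le_univ _).trans hD)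
  obtain ⟨h, hh⟩ : ∃ h : ℕ → ℝ, h = fun k => ((d.factorial : ℝ) * (S k).card) ^ (1 / d : ℝ) :=
    ⟨_, rfl⟩
  have h0 : ∀ k, 0 ≤ h k := fun k => by rw [hh]; positivity
  have hp : ∀ k, h k ^ d = d.factorial * (S k).card := fun k => by
    rw [hh, one_div]
    exact Real.rpow_inv_natCast_pow (by positivity) hd0
  have hle : ∀ k, h k * (S k).card ≤ d.factorial * D ^ 2 := fun k => by
    have h1 : ((S k).card : ℝ) ≤ D := by exact_mod_cast hTD k
    rcases (S k).eq_empty_or_nonempty with e | e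
    · rw [e, Finset.card_empty, Nat.cast_zero, mul_zero]
      positivity
    have h2 : (1 : ℝ) ≤ (S k).card := by exact_mod_cast e.card_pos
    have h3 : 1 ≤ h k := by
      rw [hh]
      exact Real.one_le_rpow (by nlinarith) (by positivity)
    have h4 := le_self_pow₀ h3 hd0
    rw [hp] at h4
    calc _ ≤ ((d.factorial : ℝ) * (S k).card) * (S k).card := by gcongr
      _ ≤ ((d.factorial : ℝ) * D) * D := by gcongr
      _ = _ := by ring
  have hstep : ∀ k, k ≤ M → h k * (S k).card / (d + 1) + (S k).card * H ≤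
      h (k + L) * (S (k + L)).card / (d + 1) := fun k hk => by
    rcases (S k).eq_empty_or_nonempty with e | e
    · rw [e, Finset.card_empty, Nat.cast_zero, mul_zero, zero_mul, zero_div, add_zero]
      have := h0 (k + L)
      positivity
    have h1 := bm_disc hd e hΓ (T := S (k + L)) (fun β hβ γ hγ ε hε => by
      rw [hS] at hβ ⊢
      obtain ⟨i, hi, rfl⟩ := Finset.mem_image.1 hβ
      rw [hT] at hi ⊢
      obtain ⟨i', h1, h2⟩ := shift i γ hγ ε hε k (Finset.mem_filter.1 hi).2 (by omega)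
      exact Finset.mem_image.2 ⟨i', Finset.mem_filter.2 ⟨Finset.mem_univ _, h1⟩, h2⟩)
    have h2 : H ≤ (d.factorial : ℝ) ^ (1 / d : ℝ) * (Γ.card : ℝ) ^ (1 / d : ℝ) := by
      rw [← Real.mul_rpow (by positivity) (by positivity), one_div,
        Real.le_rpow_inv_iff_of_pos H0 (by positivity) hd1, Real.rpow_natCast]
      exact hH
    have h3 : h k + H ≤ h (k + L) := by
      have := mul_le_mul_of_nonneg_left h1 (show 0 ≤ (d.factorial : ℝ) ^ (1 / d : ℝ) by positivity)
      simp only [hh]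
      rw [Real.mul_rpow (by positivity) (by positivity),
        Real.mul_rpow (by positivity) (by positivity)]
      linarith
    have h4 := gain_pow (h0 k) H0 h3 d
    rw [pow_succ, pow_succ, hp, hp] at h4
    rw [div_add' _ _ _ (by positivity), div_le_div_iff_of_pos_right (by positivity)]
    refine le_of_mul_le_mul_left ?_ (lt_of_lt_of_le one_pos hF)
    linarith
  have key := gain_seq (M := M) (L := L) hμ (N := fun k => (S k).card)
    (u := fun k => h k * (S k).card / (d + 1)) (D := D) (B := d.factorial * D ^ 2)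
    (fun k => by exact_mod_cast hTD k) (fun k => by have := h0 k; positivity)
    (fun k => (div_le_self (by have := h0 k; positivity) (by linarith)).trans (hle k)) H0 hstep
  have e1 : ∑ i, Real.exp (-(μ * κ i)) =
      ∑ k ∈ Finset.range (M + L + 1), wk μ (M + L) k * (S k).card := by
    have := abel hκ μ fun _ => 1
    simp only [mul_one, Finset.sum_const, nsmul_eq_mul] at this
    simp only [this, hSc, hT]
  have e2 : d * ∑ k ∈ Finset.range (M + L + 1), wk μ (M + L) k * (h k * (S k).card / (d + 1)) -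
      (d + 2) * ∑ k ∈ Finset.range (M + L + 1), wk μ (M + L) k * (S k).card ≤
      ∑ i, Real.exp (-(μ * κ i)) * ((min (∑ j, α i j) J : ℕ) : ℝ) := by
    rw [abel hκ, Finset.mul_sum, Finset.mul_sum, ← Finset.sum_sub_distrib]
    refine Finset.sum_le_sum fun k _ => ?_
    have h1 := layer hd (S k) (J := J) ((Nat.mul_le_mul_left _ (hTD k)).trans hJ) (h0 k) (hp k)
    have h2 : ∑ β ∈ S k, ((min (∑ j, β j) J : ℕ) : ℝ) =
        ∑ i with κ i ≤ k, ((min (∑ j, α i j) J : ℕ) : ℝ) := by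
      simp only [hS, hT]
      exact Finset.sum_image fun _ _ _ _ e => hα e
    rw [h2] at h1
    refine le_trans (le_of_eq ?_) (mul_le_mul_of_nonneg_left h1 (wk_nonneg hμ.le _ _))
    ring
  refine le_trans ?_ e2
  rw [e1]
  have hμL : 0 < μ * L := mul_pos hμ hL1
  have k1 := mul_le_mul_of_nonneg_left key (div_pos hd1 hμL).le
  rw [← mul_assoc (d / (μ * L)) (μ * L), div_mul_cancel₀ _ hμL.ne'] at k1
  refine le_trans (le_of_eq ?_) (sub_le_sub_right k1 _)
  ring

end Vale.Agent.P271
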