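import Vale.Agent.P271.C.Gain

/-! P271 C/GainSum: the decrease of the partition function.

Plan. Let `j i = min |α i| J`, call `i` good if `lam i ≤ A₀ - 1`. For good `i` the new weight is
`lam i + s j i` and `exp (-τ) ≤ 1 - τ (1 - ε)` for `0 ≤ τ = b s j i ≤ ε`; for other `i` the weight does
not decrease. So `Z₁ ≤ Z₀ - b s (1 - ε) ∑ good, exp (-μ κ - b lam) j`. Group the good indices by the
value of `(lam i, cl i)` (`Finset.sum_fiberwise_of_maps_to`, at most `D` values) and apply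
`gain_class` to each fibre (subtype): the sum is at least `R ∑ good, exp (..) - D err`; the indices
that are not good contribute at most `D exp (-b (A₀ - 1)) ≤ ε ≤ ε Z₀` since `Z₀ ≥ 1` by `i₀`.
Auxiliary names start with `gsum_`. -/

open MeasureTheory Set Filter Topology
open scoped ContDiff ENNReal ComplexConjugate

noncomputable section

namespace Vale.Agent.P271

theorem gsum_exp {τ ε : ℝ} (h0 : 0 ≤ τ) (h1 : τ ≤ ε) : Real.exp (-τ) ≤ 1 - τ * (1 - ε) := by
  have h2 : Real.exp (-τ) ≤ (1 + τ)⁻¹ := by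
    rw [Real.exp_neg]
    exact inv_anti₀ (by linarith) (by linarith [Real.add_one_le_exp τ])
  refine h2.trans ?_
  rw [inv_le_iff_one_le_mul₀ (by linarith)]
  nlinarith [mul_nonneg h0 (mul_nonneg h0 h0), mul_nonneg h0 (sub_nonneg.2 h1),
    mul_nonneg (mul_nonneg h0 h0) (sub_nonneg.2 h1)]

theorem gain_sum {d : ℕ} (hd : 1 ≤ d) {ι : Type} [Fintype ι] {κ : ι → ℕ} {K L D J : ℕ}
    (hκ : ∀ i, κ i ≤ K) (hL : 1 ≤ L) (hLK : L ≤ K) (hD : Fintype.card ι ≤ D)
    (hJ : d.factorial * D ≤ J) {lam : ι → ℝ} (hlam : ∀ i, 0 ≤ lam i) {cl : ι → ℕ}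
    {α : ι → Fin d → ℕ} (inj : ∀ i i', lam i = lam i' → cl i = cl i' → α i = α i' → i = i')
    {i₀ : ι} (h₀ : κ i₀ = 0 ∧ lam i₀ = 0) {Γ : Finset (Fin d → ℕ)} (hΓ : Γ.Nonempty) {H : ℝ}
    (H0 : 0 ≤ H) (hH : H ^ d ≤ d.factorial * Γ.card)
    (shift : ∀ i, ∀ γ ∈ Γ, ∀ e : Fin d → ℕ, (∀ j, e j ≤ 1) → ∀ k, κ i ≤ k → k + L ≤ K →
      ∃ i', κ i' ≤ k + L ∧ lam i' = lam i ∧ cl i' = cl i ∧ α i' = α i + γ + e)
    {μ b s ε R A₀ : ℝ} (hμ : 0 < μ) (hb : 0 < b) (hs : 0 < s) (hε : ε ≤ 1) (hA : 1 ≤ A₀)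
    (R0 : 0 ≤ R) (hR : R ≤ d * H * Real.exp (-(μ * L)) / (μ * L) - (d + 2))
    (herr : D * (d / (μ * L) * Real.exp (-(μ * K)) * (H * D + L * d.factorial * D ^ 2)) ≤ ε * R)
    (hsJ : s * J ≤ 1) (hbJ : b * s * J ≤ ε) (htop : D * Real.exp (-(b * (A₀ - 1))) ≤ ε) :
    Zf κ (fun i => min (lam i + s * ((min (∑ j, α i j) J : ℕ) : ℝ)) A₀) μ b ≤
      Zf κ (fun i => min (lam i) A₀) μ b * (1 - s * b * R * (1 - ε) * (1 - 2 * ε)) := by
  classical
  set E : ℝ := d / (μ * L) * Real.exp (-(μ * K)) * (H * D + L * d.factorial * D ^ 2) with hE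
  have E0 : 0 ≤ E := by positivity
  set j : ι → ℝ := fun i => ((min (∑ j, α i j) J : ℕ) : ℝ) with hj
  have j0 : ∀ i, 0 ≤ j i := fun i => Nat.cast_nonneg _
  have j1 : ∀ i, j i ≤ J := fun i => Nat.cast_le.2 (min_le_right _ _)
  have ε0 : 0 ≤ ε := le_trans (by positivity) hbJ
  set w : ι → ℝ := fun i => Real.exp (-(μ * κ i) - b * min (lam i) A₀) with hw
  have w0 : ∀ i, 0 < w i := fun i => Real.exp_pos _
  set G : Finset ι := Finset.univ.filter fun i => lam i ≤ A₀ - 1 with hG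
  have hGm : ∀ i, i ∈ G ↔ lam i ≤ A₀ - 1 := fun i => by simp [hG]
  -- the fibres
  have fib : ∀ p ∈ G.image fun i => (lam i, cl i),
      R * ∑ i ∈ G.filter fun i => (lam i, cl i) = p, w i - E ≤
        ∑ i ∈ G.filter fun i => (lam i, cl i) = p, w i * j i := by
    intro p hp
    obtain ⟨i₁, hi₁, rfl⟩ := Finset.mem_image.1 hp
    have hl := (hGm i₁).1 hi₁
    have hm : ∀ i, i ∈ G.filter (fun i => (lam i, cl i) = (lam i₁, cl i₁)) ↔
        lam i = lam i₁ ∧ cl i = cl i₁ := fun i => by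
      rw [Finset.mem_filter, hGm, Prod.mk.injEq]
      exact ⟨fun h => h.2, fun h => ⟨h.1 ▸ hl, h⟩⟩
    have h1 := gain_class (ι := {i // lam i = lam i₁ ∧ cl i = cl i₁}) hd (κ := fun i => κ i.1)
      (fun i => hκ i.1) hL hLK ((Fintype.card_subtype_le _).trans hD) hJ (α := fun i => α i.1)
      (fun i i' h => Subtype.ext (inj _ _ (i.2.1.trans i'.2.1.symm) (i.2.2.trans i'.2.2.symm) h))
      hΓ H0 hH (fun i γ hγ e he k hk hkL => by
        obtain ⟨i', h1, h2, h3, h4⟩ := shift i.1 γ hγ e he k hk hkL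
        exact ⟨⟨i', h2.trans i.2.1, h3.trans i.2.2⟩, h1, h4⟩) hμ
    rw [Finset.sum_subtype _ hm, Finset.sum_subtype _ hm]
    have e1 : ∀ i : {i // lam i = lam i₁ ∧ cl i = cl i₁},
        w i.1 = Real.exp (-(b * lam i₁)) * Real.exp (-(μ * κ i.1)) := fun i => by
      simp only [hw]
      rw [i.2.1, min_eq_left (by linarith), ← Real.exp_add]
      congr 1
      ring
    simp only [e1, mul_assoc, ← Finset.mul_sum]
    have h2 : Real.exp (-(b * lam i₁)) ≤ 1 :=
      Real.exp_le_one_iff.2 (neg_nonpos.2 (mul_nonneg hb.le (hlam i₁)))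
    have h3 := Real.exp_pos (-(b * lam i₁))
    have h4 : 0 ≤ ∑ i : {i // lam i = lam i₁ ∧ cl i = cl i₁}, Real.exp (-(μ * κ i.1)) :=
      Finset.sum_nonneg fun i _ => (Real.exp_pos _).le
    have h5 := mul_le_mul_of_nonneg_right hR h4
    have h6 := mul_le_mul_of_nonneg_left ((sub_le_sub_right h5 E).trans h1) h3.le
    have h7 := mul_le_mul_of_nonneg_right h2 E0
    simp only [hj]
    linarith
  have hcard : ((G.image fun i => (lam i, cl i)).card : ℝ) ≤ D :=
    Nat.cast_le.2 (Finset.card_image_le.trans ((Finset.card_le_univ _).trans hD))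
  have s1 := Finset.sum_le_sum fib
  rw [Finset.sum_sub_distrib, ← Finset.mul_sum,
    Finset.sum_fiberwise_of_maps_to fun i hi => Finset.mem_image_of_mem _ hi,
    Finset.sum_fiberwise_of_maps_to fun i hi => Finset.mem_image_of_mem _ hi,
    Finset.sum_const, nsmul_eq_mul] at s1
  -- the bad indices
  have s2 : ∑ i ∈ Finset.univ.filter fun i => ¬lam i ≤ A₀ - 1, w i ≤ ε := by
    refine (Finset.sum_le_card_nsmul _ _ (Real.exp (-(b * (A₀ - 1)))) fun i hi => ?_).trans ?_
    · have h1 : A₀ - 1 ≤ min (lam i) A₀ :=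
        le_min (not_le.1 (Finset.mem_filter.1 hi).2).le (by linarith)
      refine Real.exp_le_exp.2 ?_
      have h2 := mul_le_mul_of_nonneg_left h1 hb.le
      have h3 : 0 ≤ μ * κ i := by positivity
      linarith
    · rw [nsmul_eq_mul]
      refine le_trans (mul_le_mul_of_nonneg_right ?_ (Real.exp_pos _).le) htop
      exact Nat.cast_le.2 ((Finset.card_le_univ _).trans hD)
  have s3 := Finset.sum_filter_add_sum_filter_not Finset.univ (fun i => lam i ≤ A₀ - 1) w
  have s4 : 1 ≤ ∑ i, w i := by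
    refine le_trans (le_of_eq ?_) (Finset.single_le_sum (fun i _ => (w0 i).le) (Finset.mem_univ i₀))
    simp only [hw]
    rw [h₀.1, h₀.2, min_eq_left (by linarith)]
    simp
  -- the pointwise bound
  have s5 : ∀ i, Real.exp (-(μ * κ i) - b * min (lam i + s * j i) A₀) ≤
      w i - if lam i ≤ A₀ - 1 then b * s * (1 - ε) * (w i * j i) else 0 := by
    intro i
    have h1 : 0 ≤ s * j i := mul_nonneg hs.le (j0 i)
    have h2 : s * j i ≤ s * J := mul_le_mul_of_nonneg_left (j1 i) hs.le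
    split_ifs with h
    · have h3 := gsum_exp (τ := b * (s * j i)) (ε := ε) (by positivity)
        ((mul_le_mul_of_nonneg_left h2 hb.le).trans (by linarith))
      have h4 : Real.exp (-(μ * κ i) - b * min (lam i + s * j i) A₀) =
          w i * Real.exp (-(b * (s * j i))) := by
        simp only [hw]
        rw [min_eq_left (by linarith), min_eq_left (by linarith), ← Real.exp_add]
        congr 1
        ring
      rw [h4]
      have h5 := mul_le_mul_of_nonneg_left h3 (w0 i).le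
      linarith
    · rw [sub_zero]
      refine Real.exp_le_exp.2 ?_
      have h3 := mul_le_mul_of_nonneg_left
        (min_le_min_right A₀ (by linarith : lam i ≤ lam i + s * j i)) hb.le
      linarith
  have s6 := Finset.sum_le_sum fun i (_ : i ∈ Finset.univ) => s5 i
  rw [Finset.sum_sub_distrib, ← Finset.sum_filter, ← Finset.mul_sum] at s6
  refine s6.trans ?_
  change _ ≤ (∑ i, w i) * _
  have s7 : R * (1 - 2 * ε) * ∑ i, w i ≤ ∑ i ∈ G, w i * j i := by
    have h1 := mul_le_mul_of_nonneg_right hcard E0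
    have h2 : ∑ i, w i - ε ≤ ∑ i ∈ G, w i := by linarith
    have h3 := mul_le_mul_of_nonneg_left h2 R0
    have h4 := mul_le_mul_of_nonneg_left s4 (mul_nonneg ε0 R0)
    linarith
  have s8 := mul_le_mul_of_nonneg_left s7
    (mul_nonneg (mul_nonneg hb.le hs.le) (sub_nonneg.2 hε))
  linarith

end Vale.Agent.P271
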