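import Vale.Agent.P271.Defs

/-! P271 C/Leaf: valuations with one-dimensional leaves.

Plan. `le_of_mem_span`: `Submodule.span_induction` with the predicate `f ∈ W ∧ (f ≠ 0 → l ≤ ℓ f)`.
`li`: in a vanishing combination take the index with nonzero coefficient and least `ℓ`; its vector is
in the span of vectors of strictly larger `ℓ` (use the least of these values as `l`). `ncard`: `li`
bounds every finite subset of the image by the dimension, so the image is finite. Choose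
representatives `s`; they span `W`: if `f ∈ W` is not in their span take such an `f` with `ℓ f`
maximal and apply `leaf`. `flag`: `ι` is the (finite) image of `V K`, `κ l` the least `k` with
`l ∈ ℓ '' (V k \ {0})`, `s l` a witness; the same maximality argument gives `span`.
Auxiliary names start with `leaf_`. -/

open MeasureTheory Set Filter Topology
open scoped ContDiff ENNReal ComplexConjugate

noncomputable section

namespace Vale.Agent.P271

variable {A Λ : Type} [AddCommGroup A] [Module ℂ A] [LinearOrder Λ] {W : Submodule ℂ A} {ℓ : A → Λ}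

theorem IsLeaf.mono (h : IsLeaf W ℓ) {W' : Submodule ℂ A} (hW : W' ≤ W) : IsLeaf W' ℓ :=
  ⟨fun f hf g hg => h.add f (hW hf) g (hW hg), fun f hf => h.smul f (hW hf),
    fun f hf g hg => h.leaf f (hW hf) g (hW hg)⟩

theorem leaf_span (h : IsLeaf W ℓ) {S : Set A} (hS : S ⊆ W) {P : Λ → Prop}
    (hP : ∀ a b, a ≤ b → P a → P b) (hl : ∀ s ∈ S, s ≠ 0 → P (ℓ s)) {f : A}
    (hf : f ∈ Submodule.span ℂ S) : f ≠ 0 → P (ℓ f) := by
  have hW : Submodule.span ℂ S ≤ W := Submodule.span_le.2 hS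
  induction hf using Submodule.span_induction with
  | mem x hx => exact hl x hx
  | zero => exact fun h0 => absurd rfl h0
  | add x y hx hy px py =>
    intro h0
    rcases eq_or_ne x 0 with rfl | x0
    · rw [zero_add] at h0 ⊢
      exact py h0
    rcases eq_or_ne y 0 with rfl | y0
    · rw [add_zero]
      exact px x0
    refine hP _ _ (h.add x (hW hx) y (hW hy) x0 y0 h0) ?_
    rcases min_choice (ℓ x) (ℓ y) with e | e <;> rw [e]
    exacts [px x0, py y0]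
  | smul c x hx px =>
    intro h0
    rw [h.smul x (hW hx) (right_ne_zero_of_smul h0) c (left_ne_zero_of_smul h0)]
    exact px (right_ne_zero_of_smul h0)

theorem IsLeaf.le_of_mem_span (h : IsLeaf W ℓ) {S : Set A} (hS : S ⊆ W) {l : Λ}
    (hl : ∀ s ∈ S, s ≠ 0 → l ≤ ℓ s) {f : A} (hf : f ∈ Submodule.span ℂ S) (h0 : f ≠ 0) :
    l ≤ ℓ f := leaf_span h hS (P := fun a => l ≤ a) (fun _ _ k k' => k'.trans k) hl hf h0

theorem IsLeaf.li (h : IsLeaf W ℓ) {ι : Type} {s : ι → A} (hs : ∀ i, s i ∈ W ∧ s i ≠ 0)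
    (hi : Function.Injective fun i => ℓ (s i)) : LinearIndependent ℂ s := by
  classical
  refine linearIndependent_iff'.2 fun t g hg i₀ hi₀ => by_contra fun h0 => ?_
  obtain ⟨i, i1, i2⟩ := (t.filter fun i => g i ≠ 0).exists_min_image (fun i => ℓ (s i))
    ⟨i₀, Finset.mem_filter.2 ⟨hi₀, h0⟩⟩
  obtain ⟨i3, i4⟩ := Finset.mem_filter.1 i1
  have m : g i • s i ∈ Submodule.span ℂ (s '' {j | ℓ (s i) < ℓ (s j)}) := by
    rw [← Finset.add_sum_erase t _ i3, add_eq_zero_iff_eq_neg] at hg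
    rw [hg]
    refine neg_mem (Submodule.sum_mem _ fun j hj => ?_)
    rcases eq_or_ne (g j) 0 with e | e
    · rw [e, zero_smul]
      exact Submodule.zero_mem _
    · obtain ⟨j1, j2⟩ := Finset.mem_erase.1 hj
      exact Submodule.smul_mem _ _ (Submodule.subset_span ⟨j,
        (i2 j (Finset.mem_filter.2 ⟨j2, e⟩)).lt_of_ne fun k => j1 (hi k).symm, rfl⟩)
  have := leaf_span h (P := fun a => ℓ (s i) < a) (by rintro _ ⟨j, -, rfl⟩; exact (hs j).1)
    (fun _ _ k k' => k'.trans_le k) (by rintro _ ⟨j, hj, rfl⟩ -; exact hj) m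
    (smul_ne_zero i4 (hs i).2)
  exact this.ne' (h.smul _ (hs i).1 (hs i).2 _ i4)

theorem leaf_gen (h : IsLeaf W ℓ) (hf : (ℓ '' ((W : Set A) \ {0})).Finite) {S : Set A}
    (hS : S ⊆ W) (hg : ∀ g ∈ W, g ≠ 0 → ∃ s ∈ S, s ≠ 0 ∧ ℓ s = ℓ g) : W ≤ Submodule.span ℂ S := by
  intro f₀ hf₀
  by_contra hn
  have h0 : ∀ f, f ∉ Submodule.span ℂ S → f ≠ 0 := fun f hf e => hf (e ▸ Submodule.zero_mem _)
  obtain ⟨_, ⟨f, ⟨f1, f2⟩, rfl⟩, hm⟩ := exists_max_image (ℓ '' {f | f ∈ W ∧ f ∉ Submodule.span ℂ S})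
    id (hf.subset (image_mono fun f hf => ⟨hf.1, h0 f hf.2⟩)) ⟨_, f₀, ⟨hf₀, hn⟩, rfl⟩
  obtain ⟨s, s1, s2, s3⟩ := hg f f1 (h0 f f2)
  obtain ⟨c, hc⟩ := h.leaf f f1 s (hS s1) (h0 f f2) s2 s3.symm
  have m := Submodule.smul_mem _ c (Submodule.subset_span (R := ℂ) s1)
  have n : f - c • s ∉ Submodule.span ℂ S := fun k => f2 (by simpa using add_mem k m)
  exact hc.elim (h0 _ n) (hm _ ⟨_, ⟨sub_mem f1 (W.smul_mem c (hS s1)), n⟩, rfl⟩).not_gt

theorem IsLeaf.ncard [FiniteDimensional ℂ W] (h : IsLeaf W ℓ) :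
    (ℓ '' ((W : Set A) \ {0})).Finite ∧
      (ℓ '' ((W : Set A) \ {0})).ncard = Module.finrank ℂ W := by
  choose r r1 r2 using fun l : ℓ '' ((W : Set A) \ {0}) => l.2
  have li := h.li (s := r) r1 fun a b e => Subtype.ext ((r2 a).symm.trans (Eq.trans e (r2 b)))
  have fin : Finite (ℓ '' ((W : Set A) \ {0})) :=
    (LinearIndependent.of_comp (v := fun i => (⟨r i, (r1 i).1⟩ : W)) W.subtype li).finite
  have hS : range r ⊆ W := range_subset_iff.2 fun i => (r1 i).1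
  have e : Submodule.span ℂ (range r) = W := le_antisymm (Submodule.span_le.2 hS)
    (leaf_gen h fin hS fun g g1 g2 => ⟨_, ⟨⟨_, g, ⟨g1, g2⟩, rfl⟩, rfl⟩, (r1 _).2, r2 _⟩)
  have := Fintype.ofFinite (ℓ '' ((W : Set A) \ {0}))
  refine ⟨fin, ?_⟩
  rw [← Nat.card_coe_set_eq, Nat.card_eq_fintype_card, ← finrank_span_eq_card li, e]

theorem IsLeaf.flag {V : ℕ → Submodule ℂ A} (hV : Monotone V) {K : ℕ} [FiniteDimensional ℂ (V K)]
    (h : IsLeaf (V K) ℓ) :
    ∃ (ι : Type) (_ : Fintype ι) (s : ι → A) (κ : ι → ℕ), FlagBasis V K s κ ∧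
      (Function.Injective fun i => ℓ (s i)) ∧
      ∀ k ≤ K, ∀ g ∈ V k, g ≠ 0 → ∃ i, κ i ≤ k ∧ ℓ (s i) = ℓ g := by
  classical
  have fin := h.ncard.1
  have ex : ∀ l : ℓ '' ((V K : Set A) \ {0}), ∃ k, ∃ g ∈ V k, g ≠ 0 ∧ ℓ g = l :=
    fun ⟨_, g, hg, e⟩ => ⟨K, g, hg.1, hg.2, e⟩
  choose s s1 s2 s3 using fun l => Nat.find_spec (ex l)
  have le : ∀ l, Nat.find (ex l) ≤ K := fun ⟨_, g, hg, e⟩ => Nat.find_min' _ ⟨g, hg.1, hg.2, e⟩
  have inj : Function.Injective fun l => ℓ (s l) := fun a b e =>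
    Subtype.ext ((s3 a).symm.trans (Eq.trans e (s3 b)))
  have key : ∀ k ≤ K, ∀ g ∈ V k, g ≠ 0 → ∃ l, Nat.find (ex l) ≤ k ∧ ℓ (s l) = ℓ g :=
    fun k hk g g1 g2 => ⟨⟨_, g, ⟨hV hk g1, g2⟩, rfl⟩, Nat.find_min' _ ⟨g, g1, g2, rfl⟩, s3 _⟩
  refine ⟨_, fin.fintype, s, fun l => Nat.find (ex l), ⟨le, s1,
    h.li (fun l => ⟨hV (le l) (s1 l), s2 l⟩) inj, fun k hk => leaf_gen (h.mono (hV hk))
      (fin.subset (image_mono fun f hf => ⟨hV hk hf.1, hf.2⟩)) ?_ fun g g1 g2 => ?_⟩, inj, key⟩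
  · rintro _ ⟨l, hl, rfl⟩
    exact hV hl (s1 l)
  · obtain ⟨l, l1, l2⟩ := key k hk g g1 g2
    exact ⟨_, ⟨l, l1, rfl⟩, s2 l, l2⟩

end Vale.Agent.P271
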